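/-!
Plain functions for the kernel checkable certificates about covers of multipartite hypergraphs.
An edge is a list of labels, one label per part. The label `254` marks an unassigned coordinate of a
partial edge and the label `255` marks a vertex which is new with respect to the current family.
The functions are written directly with recursors, since this is what the kernel evaluates fastest.
-/

namespace Vale.Agent.Lib.P045

/-- The label at position `p`. -/
noncomputable def lab (l : List Nat) : Nat → Nat :=
  List.rec (motive := fun _ => Nat → Nat) (fun _ => 0)
    (fun x _ ih p => Nat.rec (motive := fun _ => Nat) x (fun q _ => ih q) p) l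

/-- Two lists agree at some position. -/
noncomputable def hit (a : List Nat) : List Nat → Bool :=
  List.rec (motive := fun _ => List Nat → Bool) (fun _ => false)
    (fun x _ ih b => List.rec (motive := fun _ => Bool) false
      (fun y t _ => cond (Nat.beq x y) true (ih t)) b) a

/-- `a` agrees with some member of `U` at some position. -/
noncomputable def anyHit (a : List Nat) (U : List (List Nat)) : Bool :=
  List.rec (motive := fun _ => Bool) false (fun e _ ih => cond (hit a e) true ih) U

/-- The members of `Us` which `e` does not agree with, each with `e` put in front. -/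
noncomputable def extend (e : List Nat) (Us : List (List (List Nat))) (tl : List (List (List Nat))) :
    List (List (List Nat)) :=
  List.rec (motive := fun _ => List (List (List Nat))) tl
    (fun U _ ih => cond (anyHit e U) ih ((e :: U) :: ih)) Us

/-- All sublists of `K` of length `n` whose members pairwise do not agree at any position. -/
noncomputable def matchings (n : Nat) (K : List (List Nat)) : List (List (List Nat)) :=
  List.rec (motive := fun _ => Nat → List (List (List Nat)))
    (fun n => Nat.rec (motive := fun _ => List (List (List Nat))) [[]] (fun _ _ => []) n)
    (fun e _ ih n => Nat.rec (motive := fun _ => List (List (List Nat))) [[]]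
      (fun m _ => extend e (ih m) (ih (Nat.add m 1))) n) K n

/-- Replace the entry at position `p`. -/
noncomputable def setAt (a : List Nat) : Nat → Nat → List Nat :=
  List.rec (motive := fun _ => Nat → Nat → List Nat) (fun _ _ => [])
    (fun x t ih p v => Nat.rec (motive := fun _ => List Nat) (v :: t) (fun q _ => x :: ih q v) p) a

/-- The first position, counted from `p`, with an unassigned entry. -/
noncomputable def findUn (a : List Nat) : Nat → Option Nat :=
  List.rec (motive := fun _ => Nat → Option Nat) (fun _ => none)
    (fun x _ ih p => cond (Nat.beq x 254) (some p) (ih (Nat.add p 1))) a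

/-- Membership of a pair in a list of pairs. -/
noncomputable def memP (o : Nat × Nat) (l : List (Nat × Nat)) : Bool :=
  List.rec (motive := fun _ => Bool) false
    (fun u _ ih => cond (Nat.beq o.1 u.1) (cond (Nat.beq o.2 u.2) true ih) ih) l

/-- The pairs (position, label of `e`) at positions where `a` is unassigned, in front of `tl`. -/
noncomputable def optsEdge (a : List Nat) : List Nat → Nat → List (Nat × Nat) → List (Nat × Nat) :=
  List.rec (motive := fun _ => List Nat → Nat → List (Nat × Nat) → List (Nat × Nat))
    (fun _ _ tl => tl)
    (fun x _ ih e s tl => List.rec (motive := fun _ => List (Nat × Nat)) tl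
      (fun y t _ => cond (Nat.beq x 254) ((s, y) :: ih t (Nat.add s 1) tl) (ih t (Nat.add s 1) tl)) e)
    a

/-- The options for each member of a list of edges. -/
noncomputable def optsAll (a : List Nat) (U : List (List Nat)) : List (Nat × Nat) :=
  List.rec (motive := fun _ => List (Nat × Nat)) [] (fun e _ ih => optsEdge a e 0 ih) U

/-- The options given by the labels of `K` at position `p`, and the new vertex. -/
noncomputable def optsDom (p : Nat) (K : List (List Nat)) : List (Nat × Nat) :=
  List.rec (motive := fun _ => List (Nat × Nat)) [(p, 255)] (fun e _ ih => (p, lab e p) :: ih) K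

/-- The result of a search: the records not used yet, if all checks passed. -/
abbrev Res := Option (List Nat)

/-- Run `k` on the first member of `Ms` not met by `a`, with the members after it; or give `d`. -/
noncomputable def scan (a : List Nat) (k : List (List Nat) → List (List (List Nat)) → Res) (d : Res)
    (Ms : List (List (List Nat))) : Res :=
  List.rec (motive := fun _ => Res) d (fun U Us ih => cond (anyHit a U) ih (k U Us)) Ms

/-- Run `f` on the options in turn, and exclude each option after it was tried. -/
noncomputable def loop (f : List Nat → List (Nat × Nat) → List Nat → Res) (a : List Nat)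
    (opts : List (Nat × Nat)) : List (Nat × Nat) → List Nat → Res :=
  List.rec (motive := fun _ => List (Nat × Nat) → List Nat → Res) (fun _ w => some w)
    (fun o _ ih forb w => cond (memP o forb) (ih forb w)
      (Option.rec (motive := fun _ => Res) none (fun w' => ih (o :: forb) w')
        (f (setAt a o.1 o.2) forb w))) opts

/-- The search over all completions of the partial edge `a` which avoid `forb`. -/
noncomputable def go (K : List (List Nat)) (leaf : List Nat → List Nat → Res) (n : Nat) :
    List (List (List Nat)) → List Nat → List (Nat × Nat) → List Nat → Res :=
  Nat.rec (motive := fun _ => List (List (List Nat)) → List Nat → List (Nat × Nat) → List Nat → Res)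
    (fun _ _ _ _ => none)
    (fun _ ih Ms a forb w =>
      scan a (fun U Us => loop (ih Us) a (optsAll a U) forb w)
        (Option.rec (motive := fun _ => Res) (leaf a w)
          (fun p => loop (ih []) a (optsDom p K) forb w) (findUn a 0)) Ms) n

/-- The length of a list. -/
noncomputable def len (l : List Nat) : Nat :=
  List.rec (motive := fun _ => Nat) 0 (fun _ _ ih => Nat.add ih 1) l

/-- All entries are below `b`. -/
noncomputable def allLt (b : Nat) (l : List Nat) : Bool :=
  List.rec (motive := fun _ => Bool) true (fun x _ ih => cond (Nat.blt x b) ih false) l

/-- `x` is an entry of `l`. -/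
noncomputable def memN (x : Nat) (l : List Nat) : Bool :=
  List.rec (motive := fun _ => Bool) false (fun y _ ih => cond (Nat.beq x y) true ih) l

/-- No repeated entry. -/
noncomputable def nodupL (l : List Nat) : Bool :=
  List.rec (motive := fun _ => Bool) true (fun x t ih => cond (memN x t) false ih) l

/-- No repeated entry in any member. -/
noncomputable def allNodup (l : List (List Nat)) : Bool :=
  List.rec (motive := fun _ => Bool) true (fun x _ ih => cond (nodupL x) ih false) l

/-- The list has entry `v` at position `l`. -/
noncomputable def atEq (f : List Nat) : Nat → Nat → Bool :=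
  List.rec (motive := fun _ => Nat → Nat → Bool) (fun _ _ => false)
    (fun x _ ih l v => Nat.rec (motive := fun _ => Bool) (Nat.beq x v) (fun j _ => ih j v) l) f

/-- The edge at index `i` of `K`, and the edge `a` for indices past the end. -/
noncomputable def rowOf (K : List (List Nat)) (a : List Nat) : Nat → List Nat :=
  List.rec (motive := fun _ => Nat → List Nat) (fun _ => a)
    (fun e _ ih i => Nat.rec (motive := fun _ => List Nat) e (fun j _ => ih j) i) K

/-- The edge `e` goes to `row` under the positions `pi` and the relabellings `phis`. -/
noncomputable def chkRow (row e : List Nat) : List Nat → List (List Nat) → Bool :=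
  List.rec (motive := fun _ => List Nat → List (List Nat) → Bool) (fun _ _ => true)
    (fun l _ ih pi phis => List.rec (motive := fun _ => Bool) false
      (fun p ps _ => List.rec (motive := fun _ => Bool) false
        (fun f fs _ => cond (atEq f l (lab row p)) (ih ps fs) false) phis) pi) e

/-- Each edge of `K'` goes to the edge of the index given by `sig`. -/
noncomputable def chkEdges (K : List (List Nat)) (a pi : List Nat) (phis : List (List Nat))
    (K' : List (List Nat)) : List Nat → Bool :=
  List.rec (motive := fun _ => List Nat → Bool) (fun _ => true)
    (fun e _ ih sig => List.rec (motive := fun _ => Bool) false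
      (fun i t _ => cond (chkRow (rowOf K a i) e pi phis) (ih t) false) sig) K'

/-- A certified copy of the family `K'` inside `K` with the extra edge `a`. -/
noncomputable def embOK (r : Nat) (K' K : List (List Nat)) (a sig pi : List Nat)
    (phis : List (List Nat)) : Bool :=
  cond (Nat.beq (len pi) r)
    (cond (allLt r pi)
      (cond (nodupL pi)
        (cond (allNodup phis) (chkEdges K a pi phis K' sig) false) false) false) false

/-- The witness for one completed edge: the index of an earlier family and a copy of it. -/
structure Wit where
  id : Nat
  sig : List Nat
  pi : List Nat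
  phis : List (List Nat)

/-- Read `p` digits of `x` in base `256`. -/
noncomputable def rdB (p : Nat) : Nat → List Nat :=
  Nat.rec (motive := fun _ => Nat → List Nat) (fun _ => [])
    (fun _ ih x => Nat.mod x 256 :: ih (Nat.div x 256)) p

/-- Read `r` lists of digits, each with its length in front. -/
noncomputable def rdPhis (r : Nat) : Nat → List (List Nat) :=
  Nat.rec (motive := fun _ => Nat → List (List Nat)) (fun _ => [])
    (fun _ ih z =>
      rdB (Nat.mod z 256) (Nat.div z 256) ::
        ih (Nat.div z (Nat.pow 256 (Nat.add (Nat.mod z 256) 1)))) r

/-- The witness stored in a number. -/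
noncomputable def decWit (r d : Nat) : Wit :=
  Wit.mk (Nat.mod d 65536)
    (rdB (Nat.mod (Nat.div d 65536) 256)
      (Nat.div d (Nat.pow 256 (Nat.add 3 r))))
    (rdB r (Nat.div d 16777216))
    (rdPhis r (Nat.div d (Nat.pow 256
      (Nat.add (Nat.add 3 r) (Nat.mod (Nat.div d 65536) 256)))))

/-- The check of one completed edge with one stored witness. -/
noncomputable def wOK (r : Nat) (tbl : Nat → List (List Nat)) (n : Nat) (K : List (List Nat))
    (a : List Nat) (w : Wit) : Bool :=
  cond (Nat.blt w.id n) (embOK r (tbl w.id) K a w.sig w.pi w.phis) false

/-- The check of one completed edge with the next stored witness. -/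
noncomputable def leafCheck (r : Nat) (tbl : Nat → List (List Nat)) (n : Nat)
    (K : List (List Nat)) (a : List Nat) (w : List Nat) : Res :=
  List.rec (motive := fun _ => Res) none
    (fun d ws _ => cond (wOK r tbl n K a (decWit r d)) (some ws) none) w

/-- Edges of the right length with labels below `254`. -/
noncomputable def wellFormed (r : Nat) (K : List (List Nat)) : Bool :=
  List.rec (motive := fun _ => Bool) true
    (fun e _ ih => cond (Nat.beq (len e) r) (cond (allLt 254 e) ih false) false) K

/-- All pairs have first entry below `r` and second entry below `254`. -/
noncomputable def pairsOK (r : Nat) (C : List (Nat × Nat)) : Bool :=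
  List.rec (motive := fun _ => Bool) true
    (fun o _ ih => cond (Nat.blt o.1 r) (cond (Nat.blt o.2 254) ih false) false) C

/-- The length of a list of pairs. -/
noncomputable def lenP (C : List (Nat × Nat)) : Nat :=
  List.rec (motive := fun _ => Nat) 0 (fun _ _ ih => Nat.add ih 1) C

/-- The check of one family of the certificate. -/
noncomputable def kernelOK (r nu c : Nat) (tbl : Nat → List (List Nat)) (n : Nat)
    (K : List (List Nat)) (C : List (Nat × Nat)) (w : List Nat) : Bool :=
  cond (wellFormed r K)
    (cond (Nat.ble (lenP C) c)
      (cond (pairsOK r C)
        (Option.rec (motive := fun _ => Bool) false (fun _ => true)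
          (go K (leafCheck r tbl n K) (Nat.add r 1) (matchings nu K) (List.replicate r 254) C w))
        false) false) false

/-- Read `p` digits of `x` in base `64`. -/
noncomputable def decE (p : Nat) : Nat → List Nat :=
  Nat.rec (motive := fun _ => Nat → List Nat) (fun _ => [])
    (fun _ ih x => Nat.mod x 64 :: ih (Nat.div x 64)) p

/-- Read edges with `r` digits each from `x`, which has the top digit `1`. -/
noncomputable def decF (r f : Nat) : Nat → List (List Nat) :=
  Nat.rec (motive := fun _ => Nat → List (List Nat)) (fun _ => [])
    (fun _ ih x => cond (Nat.ble x 1) [] (decE r x :: ih (Nat.div x (Nat.pow 64 r)))) f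

/-- Entry `n` of the table in chunks of `cw` entries of `w` bits each. -/
noncomputable def tblOf (r w cw : Nat) (chunks : List (List Nat)) (n : Nat) : List (List Nat) :=
  decF r 128 (Nat.land
    (Nat.shiftRight
      (lab (rowOf chunks [] (Nat.div (Nat.div n cw) 8)) (Nat.mod (Nat.div n cw) 8))
      (Nat.mul (Nat.mod n cw) w))
    (Nat.sub (Nat.pow 2 w) 1))

/-- Read pairs of digits of `x` in base `256`. -/
noncomputable def rdP (p : Nat) : Nat → List (Nat × Nat) :=
  Nat.rec (motive := fun _ => Nat → List (Nat × Nat)) (fun _ => [])
    (fun _ ih x => (Nat.mod x 256, Nat.mod (Nat.div x 256) 256) :: ih (Nat.div x 65536)) p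

/-- The chosen vertices stored in a number: their number and then the pairs. -/
noncomputable def decC (d : Nat) : List (Nat × Nat) := rdP (Nat.mod d 256) (Nat.div d 256)

/-- The statement that family `n` of the table passes its check. -/
def Chk (r nu c : Nat) (tbl : Nat → List (List Nat)) (n : Nat) : Prop :=
  ∃ (C : List (Nat × Nat)) (w : List Nat), kernelOK r nu c tbl n (tbl n) C w = true

/-- The families with indices from `a` up to below `b` pass their checks. -/
def UpTo (r nu c : Nat) (tbl : Nat → List (List Nat)) (a b : Nat) : Prop :=
  ∀ n, a ≤ n → n < b → Chk r nu c tbl n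

theorem UpTo.nil (r nu c : Nat) (tbl : Nat → List (List Nat)) (a : Nat) : UpTo r nu c tbl a a :=
  fun _ h1 h2 => absurd (Nat.lt_of_le_of_lt h1 h2) (Nat.lt_irrefl _)

theorem UpTo.snoc {r nu c : Nat} {tbl : Nat → List (List Nat)} {a b : Nat}
    (h : UpTo r nu c tbl a b) {C : List (Nat × Nat)} {w : List Nat}
    (hb : kernelOK r nu c tbl b (tbl b) C w = true) : UpTo r nu c tbl a (b + 1) := by
  intro n h1 h2
  by_cases hn : n = b
  · subst hn; exact ⟨C, w, hb⟩
  · exact h n h1 (by omega)

theorem UpTo.trans {r nu c : Nat} {tbl : Nat → List (List Nat)} {a b d : Nat}
    (h : UpTo r nu c tbl a b) (h' : UpTo r nu c tbl b d) : UpTo r nu c tbl a d := by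
  intro n h1 h2
  by_cases hn : n < b
  · exact h n h1 hn
  · exact h' n (by omega) h2

/-- The checks of consecutive families against their records. -/
noncomputable def chkList (r nu c : Nat) (tbl : Nat → List (List Nat))
    (ds : List (Nat × List Nat)) : Nat → Bool :=
  List.rec (motive := fun _ => Nat → Bool) (fun _ => true)
    (fun d _ ih n => cond (kernelOK r nu c tbl n (tbl n) (decC d.1) d.2) (ih (Nat.add n 1)) false)
    ds

theorem UpTo.of_chkList {r nu c : Nat} {tbl : Nat → List (List Nat)}
    {ds : List (Nat × List Nat)} {lo hi : Nat} (hl : lo + ds.length = hi)
    (h : chkList r nu c tbl ds lo = true) : UpTo r nu c tbl lo hi := by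
  induction ds generalizing lo with
  | nil =>
    have : lo = hi := by simpa using hl
    subst this
    exact UpTo.nil _ _ _ _ _
  | cons d ds ih =>
    have h1 : chkList r nu c tbl (d :: ds) lo =
      cond (kernelOK r nu c tbl lo (tbl lo) (decC d.1) d.2) (chkList r nu c tbl ds (lo + 1)) false :=
      rfl
    rw [h1] at h
    cases hk : kernelOK r nu c tbl lo (tbl lo) (decC d.1) d.2 with
    | false => rw [hk] at h; simp at h
    | true =>
      rw [hk] at h
      simp only [cond_true] at h
      have h2 : UpTo r nu c tbl (lo + 1) hi :=
        ih (by simp only [List.length_cons] at hl; omega) h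
      intro n h3 h4
      by_cases hn : n = lo
      · subst hn; exact ⟨_, _, hk⟩
      · exact h2 n (by omega) h4

end Vale.Agent.Lib.P045
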