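import Mathlib
import Vale.Agent.Lib.P045.Defs

/-!
Soundness of the certificate check: families whose check passes cannot occur in a multipartite
hypergraph which has no large matching and no small cover.
-/

namespace Vale.Agent.Lib.P045

universe u

variable {V : Type u} {r nu c : ℕ}

/-- Two edges, as functions from the parts to the vertices, have no common vertex. -/
def Dsj (a b : Fin r → V) : Prop := ∀ i, a i ≠ b i

/-- No matching of size `nu + 1` and no cover of size at most `c`. -/
structure Good (nu c : ℕ) (H : Set (Fin r → V)) : Prop where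
  noMatch : ∀ l : List (Fin r → V), l.length = nu + 1 → (∀ e ∈ l, e ∈ H) → l.Pairwise Dsj → False
  noCover : ∀ C : Finset (Fin r × V), C.card ≤ c → ∃ e ∈ H, ∀ i, (i, e i) ∉ C

/-- The edge of the hypergraph given by a list of labels and a labelling. -/
noncomputable def img (g : ℕ → ℕ → V) (e : List ℕ) : Fin r → V := fun i => g i (lab e i)

/-- The family `K` occurs in `H` with distinct labels going to distinct vertices. -/
def Occ (H : Set (Fin r → V)) (K : List (List ℕ)) : Prop :=
  ∃ g : ℕ → ℕ → V,
    (∀ p < r, ∀ e ∈ K, ∀ f ∈ K, g p (lab e p) = g p (lab f p) → lab e p = lab f p) ∧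
      ∀ e ∈ K, img g e ∈ H

/-- `K` occurs in no hypergraph over `V` without large matching and small cover. -/
def Refuted (r nu c : ℕ) (V : Type u) (K : List (List ℕ)) : Prop :=
  ∀ H : Set (Fin r → V), Good nu c H → ¬ Occ H K

/-! ### Equations -/

theorem lab_nil (p : ℕ) : lab [] p = 0 := rfl
theorem lab_zero (x : ℕ) (t : List ℕ) : lab (x :: t) 0 = x := rfl
theorem lab_succ (x : ℕ) (t : List ℕ) (p : ℕ) : lab (x :: t) (p + 1) = lab t p := rfl

theorem hit_nil (b : List ℕ) : hit [] b = false := rfl
theorem hit_cons_nil (x : ℕ) (s : List ℕ) : hit (x :: s) [] = false := rfl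
theorem hit_cons_cons (x y : ℕ) (s t : List ℕ) :
    hit (x :: s) (y :: t) = cond (Nat.beq x y) true (hit s t) := rfl

theorem anyHit_nil (a : List ℕ) : anyHit a [] = false := rfl
theorem anyHit_cons (a e : List ℕ) (U : List (List ℕ)) :
    anyHit a (e :: U) = cond (hit a e) true (anyHit a U) := rfl

theorem extend_nil (e : List ℕ) (tl : List (List (List ℕ))) : extend e [] tl = tl := rfl
theorem extend_cons (e : List ℕ) (U : List (List ℕ)) (Us tl : List (List (List ℕ))) :
    extend e (U :: Us) tl =
      cond (anyHit e U) (extend e Us tl) ((e :: U) :: extend e Us tl) := rfl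

theorem matchings_zero (K : List (List ℕ)) : matchings 0 K = [[]] := by
  cases K <;> rfl
theorem matchings_succ_nil (n : ℕ) : matchings (n + 1) [] = [] := rfl
theorem matchings_succ_cons (n : ℕ) (e : List ℕ) (K : List (List ℕ)) :
    matchings (n + 1) (e :: K) = extend e (matchings n K) (matchings (n + 1) K) := rfl

theorem setAt_nil (p v : ℕ) : setAt [] p v = [] := rfl
theorem setAt_zero (x : ℕ) (t : List ℕ) (v : ℕ) : setAt (x :: t) 0 v = v :: t := rfl
theorem setAt_succ (x : ℕ) (t : List ℕ) (p v : ℕ) :
    setAt (x :: t) (p + 1) v = x :: setAt t p v := rfl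

theorem findUn_nil (p : ℕ) : findUn [] p = none := rfl
theorem findUn_cons (x : ℕ) (t : List ℕ) (p : ℕ) :
    findUn (x :: t) p = cond (Nat.beq x 254) (some p) (findUn t (p + 1)) := rfl

theorem memP_nil (o : ℕ × ℕ) : memP o [] = false := rfl
theorem memP_cons (o u : ℕ × ℕ) (t : List (ℕ × ℕ)) :
    memP o (u :: t) =
      cond (Nat.beq o.1 u.1) (cond (Nat.beq o.2 u.2) true (memP o t)) (memP o t) := rfl

theorem optsEdge_nil (e : List ℕ) (s : ℕ) (tl : List (ℕ × ℕ)) : optsEdge [] e s tl = tl := rfl
theorem optsEdge_cons_nil (x : ℕ) (a : List ℕ) (s : ℕ) (tl : List (ℕ × ℕ)) :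
    optsEdge (x :: a) [] s tl = tl := rfl
theorem optsEdge_cons_cons (x y : ℕ) (a t : List ℕ) (s : ℕ) (tl : List (ℕ × ℕ)) :
    optsEdge (x :: a) (y :: t) s tl =
      cond (Nat.beq x 254) ((s, y) :: optsEdge a t (s + 1) tl) (optsEdge a t (s + 1) tl) := rfl

theorem optsAll_nil (a : List ℕ) : optsAll a [] = [] := rfl
theorem optsAll_cons (a e : List ℕ) (U : List (List ℕ)) :
    optsAll a (e :: U) = optsEdge a e 0 (optsAll a U) := rfl

theorem optsDom_nil (p : ℕ) : optsDom p [] = [(p, 255)] := rfl
theorem optsDom_cons (p : ℕ) (e : List ℕ) (K : List (List ℕ)) :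
    optsDom p (e :: K) = (p, lab e p) :: optsDom p K := rfl

theorem scan_nil (a : List ℕ) (k : List (List ℕ) → List (List (List ℕ)) → Res) (d : Res) :
    scan a k d [] = d := rfl
theorem scan_cons (a : List ℕ) (k : List (List ℕ) → List (List (List ℕ)) → Res) (d : Res)
    (U : List (List ℕ)) (Us : List (List (List ℕ))) :
    scan a k d (U :: Us) = cond (anyHit a U) (scan a k d Us) (k U Us) := rfl

theorem loop_nil (f : List ℕ → List (ℕ × ℕ) → List ℕ → Res) (a : List ℕ) (forb : List (ℕ × ℕ))
    (w : List ℕ) : loop f a [] forb w = some w := rfl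
theorem loop_cons (f : List ℕ → List (ℕ × ℕ) → List ℕ → Res) (a : List ℕ) (o : ℕ × ℕ)
    (os forb : List (ℕ × ℕ)) (w : List ℕ) :
    loop f a (o :: os) forb w =
      cond (memP o forb) (loop f a os forb w)
        (Option.rec none (fun w' => loop f a os (o :: forb) w') (f (setAt a o.1 o.2) forb w)) := rfl

theorem go_zero (K : List (List ℕ)) (leaf : List ℕ → List ℕ → Res)
    (Ms : List (List (List ℕ))) (a : List ℕ) (forb : List (ℕ × ℕ)) (w : List ℕ) :
    go K leaf 0 Ms a forb w = none := rfl
theorem go_succ (K : List (List ℕ)) (leaf : List ℕ → List ℕ → Res) (n : ℕ)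
    (Ms : List (List (List ℕ))) (a : List ℕ) (forb : List (ℕ × ℕ)) (w : List ℕ) :
    go K leaf (n + 1) Ms a forb w =
      scan a (fun U Us => loop (go K leaf n Us) a (optsAll a U) forb w)
        (Option.rec (leaf a w) (fun p => loop (go K leaf n []) a (optsDom p K) forb w) (findUn a 0))
        Ms := rfl

theorem len_eq (l : List ℕ) : len l = l.length := by
  induction l with
  | nil => rfl
  | cons x t ih =>
    have : len (x :: t) = len t + 1 := rfl
    simp [this, ih]

theorem lenP_eq (l : List (ℕ × ℕ)) : lenP l = l.length := by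
  induction l with
  | nil => rfl
  | cons x t ih =>
    have : lenP (x :: t) = lenP t + 1 := rfl
    simp [this, ih]

theorem lt_of_blt {a b : ℕ} (h : Nat.blt a b = true) : a < b := Nat.le_of_ble_eq_true h

/-- A `cond` with value `true` and the else branch `false` has a true condition. -/
theorem of_cond_false {b x : Bool} (h : cond b x false = true) : b = true ∧ x = true := by
  cases b <;> simp_all

theorem allLt_cons (b x : ℕ) (t : List ℕ) :
    allLt b (x :: t) = cond (Nat.blt x b) (allLt b t) false := rfl

theorem memN_cons (x y : ℕ) (t : List ℕ) :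
    memN x (y :: t) = cond (Nat.beq x y) true (memN x t) := rfl

theorem nodupL_cons (x : ℕ) (t : List ℕ) :
    nodupL (x :: t) = cond (memN x t) false (nodupL t) := rfl

theorem allNodup_cons (x : List ℕ) (t : List (List ℕ)) :
    allNodup (x :: t) = cond (nodupL x) (allNodup t) false := rfl

theorem atEq_nil (l v : ℕ) : atEq [] l v = false := rfl
theorem atEq_zero (x : ℕ) (t : List ℕ) (v : ℕ) : atEq (x :: t) 0 v = Nat.beq x v := rfl
theorem atEq_succ (x : ℕ) (t : List ℕ) (l v : ℕ) : atEq (x :: t) (l + 1) v = atEq t l v := rfl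

theorem rowOf_nil (a : List ℕ) (i : ℕ) : rowOf [] a i = a := rfl
theorem rowOf_zero (e : List ℕ) (K : List (List ℕ)) (a : List ℕ) : rowOf (e :: K) a 0 = e := rfl
theorem rowOf_succ (e : List ℕ) (K : List (List ℕ)) (a : List ℕ) (i : ℕ) :
    rowOf (e :: K) a (i + 1) = rowOf K a i := rfl

theorem chkRow_nil (row : List ℕ) (pi : List ℕ) (phis : List (List ℕ)) :
    chkRow row [] pi phis = true := rfl
theorem chkRow_cons (row : List ℕ) (l : ℕ) (e : List ℕ) (p : ℕ) (ps : List ℕ) (f : List ℕ)
    (fs : List (List ℕ)) :
    chkRow row (l :: e) (p :: ps) (f :: fs) =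
      cond (atEq f l (lab row p)) (chkRow row e ps fs) false := rfl
theorem chkRow_cons_nil (row : List ℕ) (l : ℕ) (e : List ℕ) (phis : List (List ℕ)) :
    chkRow row (l :: e) [] phis = false := rfl
theorem chkRow_cons_cons_nil (row : List ℕ) (l : ℕ) (e : List ℕ) (p : ℕ) (ps : List ℕ) :
    chkRow row (l :: e) (p :: ps) [] = false := rfl

theorem chkEdges_nil (K : List (List ℕ)) (a pi : List ℕ) (phis : List (List ℕ)) (sig : List ℕ) :
    chkEdges K a pi phis [] sig = true := rfl
theorem chkEdges_cons_nil (K : List (List ℕ)) (a pi : List ℕ) (phis : List (List ℕ))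
    (e : List ℕ) (K' : List (List ℕ)) : chkEdges K a pi phis (e :: K') [] = false := rfl
theorem chkEdges_cons_cons (K : List (List ℕ)) (a pi : List ℕ) (phis : List (List ℕ))
    (e : List ℕ) (K' : List (List ℕ)) (i : ℕ) (t : List ℕ) :
    chkEdges K a pi phis (e :: K') (i :: t) =
      cond (chkRow (rowOf K a i) e pi phis) (chkEdges K a pi phis K' t) false := rfl

theorem leafCheck_nil (r : ℕ) (tbl : ℕ → List (List ℕ)) (n : ℕ) (K : List (List ℕ)) (a : List ℕ) :
    leafCheck r tbl n K a [] = none := rfl
theorem leafCheck_cons (r : ℕ) (tbl : ℕ → List (List ℕ)) (n : ℕ) (K : List (List ℕ))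
    (a : List ℕ) (d : ℕ) (ws : List ℕ) :
    leafCheck r tbl n K a (d :: ws) =
      cond (wOK r tbl n K a (decWit r d)) (some ws) none := rfl

theorem wellFormed_cons (r : ℕ) (e : List ℕ) (K : List (List ℕ)) :
    wellFormed r (e :: K) =
      cond (Nat.beq (len e) r) (cond (allLt 254 e) (wellFormed r K) false) false := rfl

theorem pairsOK_cons (r : ℕ) (o : ℕ × ℕ) (C : List (ℕ × ℕ)) :
    pairsOK r (o :: C) =
      cond (Nat.blt o.1 r) (cond (Nat.blt o.2 254) (pairsOK r C) false) false := rfl

/-! ### Lists -/

theorem hit_iff {a e : List ℕ} :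
    hit a e = true ↔ ∃ p, p < a.length ∧ p < e.length ∧ lab a p = lab e p := by
  induction a generalizing e with
  | nil => simp [hit_nil]
  | cons x s ih =>
    cases e with
    | nil => simp [hit_cons_nil]
    | cons y t =>
      rw [hit_cons_cons]
      by_cases hxy : x = y
      · subst hxy
        have : Nat.beq x x = true := by simp
        simp only [this, cond_true, true_iff]
        exact ⟨0, by simp, by simp, rfl⟩
      · have : Nat.beq x y = false := by
          cases hb : Nat.beq x y with
          | false => rfl
          | true => exact absurd (Nat.eq_of_beq_eq_true hb) hxy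
        simp only [this, cond_false]
        rw [ih]
        constructor
        · rintro ⟨p, h1, h2, h3⟩
          refine ⟨p + 1, by simpa using h1, by simpa using h2, ?_⟩
          rwa [lab_succ, lab_succ]
        · rintro ⟨p, h1, h2, h3⟩
          cases p with
          | zero => rw [lab_zero, lab_zero] at h3; exact absurd h3 hxy
          | succ q =>
            rw [lab_succ, lab_succ] at h3
            exact ⟨q, by simpa using h1, by simpa using h2, h3⟩

theorem anyHit_false {a : List ℕ} {U : List (List ℕ)} (h : anyHit a U = false) :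
    ∀ e ∈ U, hit a e = false := by
  induction U with
  | nil => simp
  | cons f U ih =>
    rw [anyHit_cons] at h
    cases hf : hit a f with
    | true => rw [hf] at h; simp at h
    | false =>
      rw [hf] at h
      simp only [cond_false] at h
      intro e he
      rcases List.mem_cons.1 he with rfl | he
      · exact hf
      · exact ih h e he

theorem mem_extend {e : List ℕ} {Us tl : List (List (List ℕ))} {U : List (List ℕ)}
    (h : U ∈ extend e Us tl) :
    (∃ W ∈ Us, anyHit e W = false ∧ U = e :: W) ∨ U ∈ tl := by
  induction Us with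
  | nil => exact Or.inr h
  | cons W Us ih =>
    rw [extend_cons] at h
    cases hw : anyHit e W with
    | true =>
      rw [hw] at h
      simp only [cond_true] at h
      rcases ih h with ⟨W', h1, h2⟩ | h1
      · exact Or.inl ⟨W', List.mem_cons_of_mem _ h1, h2⟩
      · exact Or.inr h1
    | false =>
      rw [hw] at h
      simp only [cond_false, List.mem_cons] at h
      rcases h with rfl | h
      · exact Or.inl ⟨W, List.mem_cons_self, hw, rfl⟩
      · rcases ih h with ⟨W', h1, h2⟩ | h1
        · exact Or.inl ⟨W', List.mem_cons_of_mem _ h1, h2⟩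
        · exact Or.inr h1

theorem mem_matchings {n : ℕ} {K : List (List ℕ)} {U : List (List ℕ)}
    (h : U ∈ matchings n K) :
    U.length = n ∧ (∀ e ∈ U, e ∈ K) ∧ U.Pairwise (fun e f => hit e f = false) := by
  induction K generalizing n U with
  | nil =>
    cases n with
    | zero => rw [matchings_zero] at h; simp at h; subst h; simp
    | succ m => rw [matchings_succ_nil] at h; simp at h
  | cons e K ih =>
    cases n with
    | zero => rw [matchings_zero] at h; simp at h; subst h; simp
    | succ m =>
      rw [matchings_succ_cons] at h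
      rcases mem_extend h with ⟨W, hW, hall, rfl⟩ | h
      · obtain ⟨h1, h2, h3⟩ := ih hW
        refine ⟨by simp [h1], ?_, ?_⟩
        · intro f hf
          rcases List.mem_cons.1 hf with rfl | hf
          · exact List.mem_cons_self
          · exact List.mem_cons_of_mem _ (h2 f hf)
        · exact List.pairwise_cons.2 ⟨fun f hf => anyHit_false hall f hf, h3⟩
      · obtain ⟨h1, h2, h3⟩ := ih h
        exact ⟨h1, fun f hf => List.mem_cons_of_mem _ (h2 f hf), h3⟩

theorem lab_setAt_length {a : List ℕ} {p v : ℕ} : (setAt a p v).length = a.length := by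
  induction a generalizing p with
  | nil => rfl
  | cons x t ih =>
    cases p with
    | zero => rw [setAt_zero]; rfl
    | succ q => rw [setAt_succ]; simp [ih]

theorem lab_setAt_same {a : List ℕ} {p v : ℕ} (h : p < a.length) : lab (setAt a p v) p = v := by
  induction a generalizing p with
  | nil => simp at h
  | cons x t ih =>
    cases p with
    | zero => rw [setAt_zero]; rfl
    | succ q =>
      rw [setAt_succ, lab_succ]
      exact ih (by simpa using h)

theorem lab_setAt_ne {a : List ℕ} {p q v : ℕ} (h : q ≠ p) : lab (setAt a p v) q = lab a q := by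
  induction a generalizing p q with
  | nil => rfl
  | cons x t ih =>
    cases p with
    | zero =>
      cases q with
      | zero => exact absurd rfl h
      | succ q' => rw [setAt_zero]; rfl
    | succ p' =>
      cases q with
      | zero => rw [setAt_succ]; rfl
      | succ q' =>
        rw [setAt_succ, lab_succ, lab_succ]
        exact ih (by omega)

theorem list_ext_lab {a b : List ℕ} (h : a.length = b.length)
    (hab : ∀ p, p < a.length → lab a p = lab b p) : a = b := by
  induction a generalizing b with
  | nil => cases b <;> simp_all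
  | cons x s ih =>
    cases b with
    | nil => simp at h
    | cons y t =>
      have h0 : x = y := hab 0 (by simp)
      have h1 : s = t := ih (by simpa using h) (fun p hp => hab (p + 1) (by simpa using hp))
      rw [h0, h1]

theorem lab_replicate {r p v : ℕ} (h : p < r) : lab (List.replicate r v) p = v := by
  induction r generalizing p with
  | zero => omega
  | succ n ih =>
    cases p with
    | zero => rfl
    | succ q =>
      rw [List.replicate_succ, lab_succ]
      exact ih (by omega)

theorem memP_mem {o : ℕ × ℕ} {l : List (ℕ × ℕ)} (h : memP o l = true) : o ∈ l := by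
  induction l with
  | nil => simp [memP_nil] at h
  | cons u t ih =>
    rw [memP_cons] at h
    cases h1 : Nat.beq o.1 u.1 with
    | false =>
      rw [h1] at h
      exact List.mem_cons_of_mem _ (ih (by simpa using h))
    | true =>
      cases h2 : Nat.beq o.2 u.2 with
      | false =>
        rw [h1, h2] at h
        exact List.mem_cons_of_mem _ (ih (by simpa using h))
      | true =>
        have : o = u := Prod.ext (Nat.eq_of_beq_eq_true h1) (Nat.eq_of_beq_eq_true h2)
        simp [this]

theorem findUn_some {a : List ℕ} {s p : ℕ} (h : findUn a s = some p) :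
    s ≤ p ∧ p - s < a.length ∧ lab a (p - s) = 254 := by
  induction a generalizing s with
  | nil => simp [findUn_nil] at h
  | cons x t ih =>
    rw [findUn_cons] at h
    cases h1 : Nat.beq x 254 with
    | true =>
      rw [h1] at h
      have hx : x = 254 := Nat.eq_of_beq_eq_true h1
      simp only [cond_true, Option.some.injEq] at h
      subst h
      simp [lab_zero, hx]
    | false =>
      rw [h1] at h
      simp only [cond_false] at h
      obtain ⟨h2, h3, h4⟩ := ih h
      have hp : p - s = (p - (s + 1)) + 1 := by omega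
      refine ⟨by omega, ?_, ?_⟩
      · simp only [List.length_cons]; omega
      · rw [hp, lab_succ]; exact h4

theorem findUn_none {a : List ℕ} {s : ℕ} (h : findUn a s = none) :
    ∀ p, p < a.length → lab a p ≠ 254 := by
  induction a generalizing s with
  | nil => intro p hp; simp at hp
  | cons x t ih =>
    rw [findUn_cons] at h
    cases h1 : Nat.beq x 254 with
    | true =>
      rw [h1] at h
      simp at h
    | false =>
      rw [h1] at h
      simp only [cond_false] at h
      intro p hp
      cases p with
      | zero =>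
        intro hx
        rw [lab_zero] at hx
        subst hx
        simp at h1
      | succ q =>
        rw [lab_succ]
        exact ih h q (by simpa using hp)

theorem mem_optsEdge_tl {a e : List ℕ} {s : ℕ} {tl : List (ℕ × ℕ)} {o : ℕ × ℕ} (h : o ∈ tl) :
    o ∈ optsEdge a e s tl := by
  induction a generalizing e s with
  | nil => exact h
  | cons x t ih =>
    cases e with
    | nil => exact h
    | cons y u =>
      rw [optsEdge_cons_cons]
      cases Nat.beq x 254 with
      | true => exact List.mem_cons_of_mem _ ih
      | false => exact ih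

theorem mem_optsEdge {a e : List ℕ} {s p : ℕ} {tl : List (ℕ × ℕ)} (hpa : p < a.length)
    (hpe : p < e.length) (h : lab a p = 254) : (s + p, lab e p) ∈ optsEdge a e s tl := by
  induction a generalizing e s p with
  | nil => simp at hpa
  | cons x t ih =>
    cases e with
    | nil => simp at hpe
    | cons y u =>
      rw [optsEdge_cons_cons]
      cases p with
      | zero =>
        have hx : x = 254 := h
        subst hx
        have : Nat.beq 254 254 = true := rfl
        rw [this]
        exact List.mem_cons_self
      | succ q =>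
        have hq : lab t q = 254 := h
        have := ih (e := u) (s := s + 1) (p := q) (by simpa using hpa) (by simpa using hpe) hq
        have hs : s + (q + 1) = s + 1 + q := by omega
        rw [hs, lab_succ]
        cases Nat.beq x 254 with
        | true => exact List.mem_cons_of_mem _ this
        | false => exact this

theorem mem_optsAll {a : List ℕ} {U : List (List ℕ)} {o : ℕ × ℕ} {e : List ℕ} (he : e ∈ U)
    (h : ∀ tl, o ∈ optsEdge a e 0 tl) : o ∈ optsAll a U := by
  induction U with
  | nil => simp at he
  | cons f U ih =>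
    rw [optsAll_cons]
    rcases List.mem_cons.1 he with rfl | he
    · exact h _
    · exact mem_optsEdge_tl (ih he)

theorem mem_optsDom {p : ℕ} {K : List (List ℕ)} {e : List ℕ} (he : e ∈ K) :
    (p, lab e p) ∈ optsDom p K := by
  induction K with
  | nil => simp at he
  | cons f K ih =>
    rw [optsDom_cons]
    rcases List.mem_cons.1 he with rfl | he
    · exact List.mem_cons_self
    · exact List.mem_cons_of_mem _ (ih he)

theorem fresh_mem_optsDom {p : ℕ} {K : List (List ℕ)} : (p, 255) ∈ optsDom p K := by
  induction K with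
  | nil => simp [optsDom_nil]
  | cons f K ih =>
    rw [optsDom_cons]
    exact List.mem_cons_of_mem _ ih

theorem scan_cases {a : List ℕ} {k : List (List ℕ) → List (List (List ℕ)) → Res} {d : Res}
    {Ms : List (List (List ℕ))} :
    scan a k d Ms = d ∨
      ∃ U Us, U ∈ Ms ∧ (∀ e ∈ U, hit a e = false) ∧ (∀ W ∈ Us, W ∈ Ms) ∧ scan a k d Ms = k U Us := by
  induction Ms with
  | nil => exact Or.inl rfl
  | cons W Ws ih =>
    rw [scan_cons]
    cases h1 : anyHit a W with
    | true =>
      simp only [cond_true]
      rcases ih with h | ⟨U, Us, h2, h3, h4, h5⟩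
      · exact Or.inl h
      · exact Or.inr ⟨U, Us, List.mem_cons_of_mem _ h2, h3,
          fun X hX => List.mem_cons_of_mem _ (h4 X hX), h5⟩
    | false =>
      simp only [cond_false]
      exact Or.inr ⟨W, Ws, List.mem_cons_self, anyHit_false h1,
        fun X hX => List.mem_cons_of_mem _ hX, rfl⟩

/-! ### The search -/

theorem loop_sound {f : List ℕ → List (ℕ × ℕ) → List ℕ → Res} {a x : List ℕ} {P : Prop}
    {opts forb : List (ℕ × ℕ)} {w w2 : List ℕ}
    (hf : ∀ o ∈ opts, ∀ (fb : List (ℕ × ℕ)) (w w' : List ℕ), (∀ u ∈ fb, lab x u.1 ≠ u.2) →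
      f (setAt a o.1 o.2) fb w = some w' → lab x o.1 = o.2 → P)
    (hl : loop f a opts forb w = some w2) (hav : ∀ u ∈ forb, lab x u.1 ≠ u.2)
    (hex : ∃ o ∈ opts, lab x o.1 = o.2) : P := by
  induction opts generalizing forb w with
  | nil => obtain ⟨o, ho, _⟩ := hex; simp at ho
  | cons o os ih =>
    rw [loop_cons] at hl
    have hf' : ∀ o' ∈ os, ∀ (fb : List (ℕ × ℕ)) (w w' : List ℕ), (∀ u ∈ fb, lab x u.1 ≠ u.2) →
        f (setAt a o'.1 o'.2) fb w = some w' → lab x o'.1 = o'.2 → P :=
      fun o' ho' => hf o' (List.mem_cons_of_mem _ ho')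
    cases h1 : memP o forb with
    | true =>
      rw [h1] at hl
      simp only [cond_true] at hl
      have hne : lab x o.1 ≠ o.2 := hav o (memP_mem h1)
      obtain ⟨o', ho', hx⟩ := hex
      rcases List.mem_cons.1 ho' with rfl | ho''
      · exact absurd hx hne
      · exact ih hf' hl hav ⟨o', ho'', hx⟩
    | false =>
      rw [h1] at hl
      simp only [cond_false] at hl
      cases h2 : f (setAt a o.1 o.2) forb w with
      | none =>
        rw [h2] at hl
        simp at hl
      | some w' =>
        rw [h2] at hl
        change loop f a os (o :: forb) w' = some w2 at hl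
        by_cases hx : lab x o.1 = o.2
        · exact hf o List.mem_cons_self forb w w' hav h2 hx
        · obtain ⟨o', ho', hx'⟩ := hex
          rcases List.mem_cons.1 ho' with rfl | ho''
          · exact absurd hx' hx
          · refine ih hf' hl ?_ ⟨o', ho'', hx'⟩
            intro u hu
            rcases List.mem_cons.1 hu with rfl | hu
            · exact hx
            · exact hav u hu

theorem go_sound {K : List (List ℕ)} {leaf : List ℕ → List ℕ → Res} {x : List ℕ}
    (hxlen : x.length = r)
    (hdom : ∀ p < r, lab x p = 255 ∨ ∃ e ∈ K, lab x p = lab e p)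
    (n : ℕ) (Ms : List (List (List ℕ))) (a : List ℕ) (forb : List (ℕ × ℕ)) (w w2 : List ℕ)
    (h : go K leaf n Ms a forb w = some w2) (halen : a.length = r)
    (hcons : ∀ p < r, lab a p ≠ 254 → lab x p = lab a p)
    (hav : ∀ u ∈ forb, lab x u.1 ≠ u.2)
    (helen : ∀ U ∈ Ms, ∀ e ∈ U, e.length = r) :
    (∃ U ∈ Ms, ∀ e ∈ U, hit x e = false) ∨ ∃ w3 w4, leaf x w3 = some w4 := by
  induction n generalizing Ms a forb w w2 with
  | zero => rw [go_zero] at h; simp at h
  | succ n ih =>
    rw [go_succ] at h
    have hset : ∀ o : ℕ × ℕ, lab x o.1 = o.2 →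
        (setAt a o.1 o.2).length = r ∧
          ∀ p < r, lab (setAt a o.1 o.2) p ≠ 254 → lab x p = lab (setAt a o.1 o.2) p := by
      intro o ho
      refine ⟨by rw [lab_setAt_length, halen], ?_⟩
      intro p hp hne
      by_cases hpo : p = o.1
      · subst hpo
        have hlt : o.1 < a.length := by omega
        rw [lab_setAt_same hlt]; exact ho
      · rw [lab_setAt_ne hpo] at hne ⊢
        exact hcons p hp hne
    rcases scan_cases (a := a)
      (k := fun U Us => loop (go K leaf n Us) a (optsAll a U) forb w)
      (d := Option.rec (leaf a w) (fun p => loop (go K leaf n []) a (optsDom p K) forb w)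
        (findUn a 0)) (Ms := Ms) with hd | ⟨U, Us, hU1, hU2, hU3, hU4⟩
    · rw [hd] at h
      cases hp : findUn a 0 with
      | some p =>
        rw [hp] at h
        change loop (go K leaf n []) a (optsDom p K) forb w = some w2 at h
        obtain ⟨-, h2, h3⟩ := findUn_some hp
        simp only [Nat.sub_zero] at h2 h3
        have hpr : p < r := by omega
        have hopt : ∃ o ∈ optsDom p K, lab x o.1 = o.2 := by
          rcases hdom p hpr with h4 | ⟨e, he, h4⟩
          · exact ⟨(p, 255), fresh_mem_optsDom, h4⟩
          · exact ⟨(p, lab e p), mem_optsDom he, h4⟩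
        have : (∃ U ∈ ([] : List (List (List ℕ))), ∀ e ∈ U, hit x e = false) ∨
            ∃ w3 w4, leaf x w3 = some w4 := by
          refine loop_sound (opts := optsDom p K) (forb := forb) (x := x) (a := a)
            (f := go K leaf n []) ?_ h hav hopt
          intro o _ fb w' w'' hfb hgo ho
          obtain ⟨h1, h2⟩ := hset o ho
          exact ih [] _ fb w' w'' hgo h1 h2 hfb (by simp)
        rcases this with ⟨U', hU', _⟩ | hh
        · simp at hU'
        · exact Or.inr hh
      | none =>
        rw [hp] at h
        change leaf a w = some w2 at h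
        have hna := findUn_none hp
        have : x = a := list_ext_lab (by omega) (fun p hlt =>
          hcons p (by omega) (hna p (by omega)))
        rw [this]
        exact Or.inr ⟨w, w2, h⟩
    · rw [hU4] at h
      change loop (go K leaf n Us) a (optsAll a U) forb w = some w2 at h
      by_cases hall : ∀ e ∈ U, hit x e = false
      · exact Or.inl ⟨U, hU1, hall⟩
      · push Not at hall
        obtain ⟨e, he, hxe⟩ := hall
        have hxe' : hit x e = true := by simpa using hxe
        obtain ⟨p, hp1, hp2, hp3⟩ := hit_iff.1 hxe'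
        have hpr : p < r := by omega
        have hap : lab a p = 254 := by
          by_contra hne
          have h1 := hcons p hpr hne
          have h2 : hit a e = true := hit_iff.2 ⟨p, by omega, hp2, by rw [← h1, hp3]⟩
          rw [hU2 e he] at h2
          exact absurd h2 (by simp)
        have hopt : (p, lab e p) ∈ optsAll a U := by
          refine mem_optsAll he (fun tl => ?_)
          have := mem_optsEdge (s := 0) (a := a) (e := e) (p := p) (tl := tl) (by omega) hp2 hap
          simpa using this
        have hUs : ∀ U' ∈ Us, ∀ e' ∈ U', e'.length = r := fun U' hU' => helen U' (hU3 U' hU')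
        have : (∃ U ∈ Us, ∀ e ∈ U, hit x e = false) ∨ ∃ w3 w4, leaf x w3 = some w4 := by
          refine loop_sound (opts := optsAll a U) (forb := forb) (x := x) (a := a)
            (f := go K leaf n Us) ?_ h hav ⟨_, hopt, hp3⟩
          intro o _ fb w' w'' hfb hgo ho
          obtain ⟨h1, h2⟩ := hset o ho
          exact ih Us _ fb w' w'' hgo h1 h2 hfb hUs
        rcases this with ⟨U', hU', hh⟩ | hh
        · exact Or.inl ⟨U', hU3 U' hU', hh⟩
        · exact Or.inr hh

/-! ### Copies of families -/

theorem allLt_spec {b : ℕ} {l : List ℕ} (h : allLt b l = true) : ∀ x ∈ l, x < b := by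
  induction l with
  | nil => simp
  | cons y t ih =>
    rw [allLt_cons] at h
    cases h1 : Nat.blt y b with
    | false => rw [h1] at h; simp at h
    | true =>
      rw [h1] at h
      simp only [cond_true] at h
      intro x hx
      rcases List.mem_cons.1 hx with rfl | hx
      · exact lt_of_blt h1
      · exact ih h x hx

theorem memN_of_mem {x : ℕ} {l : List ℕ} (h : x ∈ l) : memN x l = true := by
  induction l with
  | nil => simp at h
  | cons y t ih =>
    rw [memN_cons]
    rcases List.mem_cons.1 h with rfl | h
    · have : Nat.beq x x = true := by simp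
      rw [this]; rfl
    · rw [ih h]
      cases Nat.beq x y <;> rfl

theorem nodupL_spec {l : List ℕ} (h : nodupL l = true) : l.Nodup := by
  induction l with
  | nil => simp
  | cons y t ih =>
    rw [nodupL_cons] at h
    cases h1 : memN y t with
    | true => rw [h1] at h; simp at h
    | false =>
      rw [h1] at h
      simp only [cond_false] at h
      refine List.nodup_cons.2 ⟨?_, ih h⟩
      intro hy
      rw [memN_of_mem hy] at h1
      simp at h1

theorem allNodup_spec {l : List (List ℕ)} (h : allNodup l = true) : ∀ x ∈ l, x.Nodup := by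
  induction l with
  | nil => simp
  | cons y t ih =>
    rw [allNodup_cons] at h
    cases h1 : nodupL y with
    | false => rw [h1] at h; simp at h
    | true =>
      rw [h1] at h
      simp only [cond_true] at h
      intro x hx
      rcases List.mem_cons.1 hx with rfl | hx
      · exact nodupL_spec h1
      · exact ih h x hx

theorem lab_eq_getD {l : List ℕ} {i : ℕ} (h : i < l.length) : lab l i = l[i] := by
  induction l generalizing i with
  | nil => simp at h
  | cons x t ih =>
    cases i with
    | zero => rfl
    | succ j =>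
      rw [lab_succ, List.getElem_cons_succ]
      exact ih (by simpa using h)

theorem atEq_spec {f : List ℕ} {l v : ℕ} (h : atEq f l v = true) : l < f.length ∧ lab f l = v := by
  induction f generalizing l with
  | nil => simp [atEq_nil] at h
  | cons x t ih =>
    cases l with
    | zero =>
      rw [atEq_zero] at h
      exact ⟨by simp, Nat.eq_of_beq_eq_true h⟩
    | succ j =>
      rw [atEq_succ] at h
      obtain ⟨h1, h2⟩ := ih h
      exact ⟨by simpa using h1, h2⟩

theorem rowOf_mem (K : List (List ℕ)) (a : List ℕ) (i : ℕ) : rowOf K a i ∈ K ++ [a] := by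
  induction K generalizing i with
  | nil => simp [rowOf_nil]
  | cons e K ih =>
    cases i with
    | zero => simp [rowOf_zero]
    | succ j =>
      rw [rowOf_succ]
      exact List.mem_cons_of_mem _ (ih j)

theorem rowOf_mem_of_lt {K : List (List ℕ)} {a : List ℕ} {i : ℕ} (h : i < K.length) :
    rowOf K a i ∈ K := by
  induction K generalizing i with
  | nil => simp at h
  | cons e K ih =>
    cases i with
    | zero => simp [rowOf_zero]
    | succ j =>
      rw [rowOf_succ]
      exact List.mem_cons_of_mem _ (ih (by simpa using h))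

theorem chkRow_spec {row e pi : List ℕ} {phis : List (List ℕ)}
    (h : chkRow row e pi phis = true) :
    ∀ q, q < e.length → q < phis.length ∧
      atEq (rowOf phis [] q) (lab e q) (lab row (lab pi q)) = true := by
  induction e generalizing pi phis with
  | nil => intro q hq; simp at hq
  | cons l e ih =>
    cases pi with
    | nil => rw [chkRow_cons_nil] at h; simp at h
    | cons p ps =>
      cases phis with
      | nil => rw [chkRow_cons_cons_nil] at h; simp at h
      | cons f fs =>
        rw [chkRow_cons] at h
        cases h1 : atEq f l (lab row p) with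
        | false => rw [h1] at h; simp at h
        | true =>
          rw [h1] at h
          simp only [cond_true] at h
          intro q hq
          cases q with
          | zero => exact ⟨by simp, h1⟩
          | succ j =>
            obtain ⟨h2, h3⟩ := ih h j (by simpa using hq)
            exact ⟨by simpa using h2, h3⟩

theorem chkEdges_spec {K : List (List ℕ)} {a pi : List ℕ} {phis K' : List (List ℕ)} {sig : List ℕ}
    (h : chkEdges K a pi phis K' sig = true) :
    ∀ e ∈ K', ∃ i, chkRow (rowOf K a i) e pi phis = true := by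
  induction K' generalizing sig with
  | nil => simp
  | cons f K' ih =>
    cases sig with
    | nil => rw [chkEdges_cons_nil] at h; simp at h
    | cons i t =>
      rw [chkEdges_cons_cons] at h
      cases h1 : chkRow (rowOf K a i) f pi phis with
      | false => rw [h1] at h; simp at h
      | true =>
        rw [h1] at h
        simp only [cond_true] at h
        intro e he
        rcases List.mem_cons.1 he with rfl | he
        · exact ⟨i, h1⟩
        · exact ih h e he

/-- The hypergraph with the parts permuted. -/
def permH (s : Fin r → Fin r) (H : Set (Fin r → V)) : Set (Fin r → V) :=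
  (fun y => y ∘ s) '' H

theorem good_permH {s : Fin r → Fin r} (hs : Function.Bijective s) {H : Set (Fin r → V)}
    (hG : Good nu c H) : Good nu c (permH s H) := by
  classical
  refine ⟨?_, ?_⟩
  · intro l hl hmem hp
    have hch : ∀ e ∈ l, ∃ y ∈ H, y ∘ s = e := fun e he => hmem e he
    choose! pre hpre1 hpre2 using hch
    refine hG.noMatch (l.map pre) (by simpa using hl) ?_ ?_
    · intro e he
      obtain ⟨f, hf, rfl⟩ := List.mem_map.1 he
      exact hpre1 f hf
    · rw [List.pairwise_map]
      refine List.Pairwise.imp_of_mem ?_ hp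
      intro a b ha hb hab i
      obtain ⟨j, rfl⟩ := hs.2 i
      have h1 := hpre2 a ha
      have h2 := hpre2 b hb
      have := hab j
      rw [← h1, ← h2] at this
      exact this
  · intro C hC
    obtain ⟨y, hy, hav⟩ := hG.noCover (C.image (fun z => (s z.1, z.2)))
      (le_trans Finset.card_image_le hC)
    refine ⟨y ∘ s, ⟨y, hy, rfl⟩, ?_⟩
    intro i hi
    apply hav (s i)
    exact Finset.mem_image.2 ⟨(i, (y ∘ s) i), hi, rfl⟩

theorem occ_of_embOK {H : Set (Fin r → V)} {K' K : List (List ℕ)} {a sig pi : List ℕ}
    {phis : List (List ℕ)}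
    (hK' : ∀ e ∈ K', e.length = r)
    (hemb : embOK r K' K a sig pi phis = true) (hocc : Occ H (K ++ [a])) :
    ∃ s : Fin r → Fin r, Function.Bijective s ∧ Occ (permH s H) K' := by
  classical
  have hemb1 : Nat.beq (len pi) r = true ∧ allLt r pi = true ∧ nodupL pi = true ∧
      allNodup phis = true ∧ chkEdges K a pi phis K' sig = true := by
    simp only [embOK] at hemb
    cases h1 : Nat.beq (len pi) r <;> rw [h1] at hemb <;> simp only [cond_false, cond_true] at hemb
    · simp at hemb
    cases h2 : allLt r pi <;> rw [h2] at hemb <;> simp only [cond_false, cond_true] at hemb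
    · simp at hemb
    cases h3 : nodupL pi <;> rw [h3] at hemb <;> simp only [cond_false, cond_true] at hemb
    · simp at hemb
    cases h4 : allNodup phis <;> rw [h4] at hemb <;> simp only [cond_false, cond_true] at hemb
    · simp at hemb
    exact ⟨rfl, rfl, rfl, rfl, hemb⟩
  obtain ⟨h2, h3, h4, h5, h6⟩ := hemb1
  have hpilen : pi.length = r := by
    have := Nat.eq_of_beq_eq_true h2
    rwa [len_eq] at this
  have hpilt := allLt_spec h3
  have hpind := nodupL_spec h4
  have hphind := allNodup_spec h5
  have hpl : ∀ q : Fin r, lab pi q < r := by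
    intro q
    apply hpilt
    rw [lab_eq_getD (by omega)]
    exact List.getElem_mem _
  let s : Fin r → Fin r := fun q => ⟨lab pi q, hpl q⟩
  have hsinj : Function.Injective s := by
    intro a b hab
    have h6 : lab pi a = lab pi b := congrArg Fin.val hab
    rw [lab_eq_getD (by omega), lab_eq_getD (by omega)] at h6
    have := (List.Nodup.getElem_inj_iff hpind).1 h6
    exact Fin.ext this
  have hsbij : Function.Bijective s := Finite.injective_iff_bijective.1 hsinj
  refine ⟨s, hsbij, ?_⟩
  obtain ⟨g, hinj, hmem⟩ := hocc
  -- the new labelling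
  let g' : ℕ → ℕ → V := fun q l => g (lab pi q) (lab (rowOf phis [] q) l)
  have hrow : ∀ e ∈ K', ∃ i, ∀ q, q < r → q < phis.length ∧
      lab e q < (rowOf phis [] q).length ∧
      lab (rowOf phis [] q) (lab e q) = lab (rowOf K a i) (lab pi q) := by
    intro e he
    obtain ⟨i, hi⟩ := chkEdges_spec h6 e he
    refine ⟨i, fun q hq => ?_⟩
    have hlen := hK' e he
    obtain ⟨h7, h8⟩ := chkRow_spec hi q (by omega)
    obtain ⟨h9, h10⟩ := atEq_spec h8
    exact ⟨h7, h9, h10⟩
  have hrowphi : ∀ q, q < phis.length → rowOf phis [] q ∈ phis := fun q hq => rowOf_mem_of_lt hq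
  refine ⟨g', ?_, ?_⟩
  · intro q hq e he f hf hgg
    obtain ⟨i, hi⟩ := hrow e he
    obtain ⟨j, hj⟩ := hrow f hf
    obtain ⟨h7, h8, h9⟩ := hi q hq
    obtain ⟨_, h11, h12⟩ := hj q hq
    simp only [g'] at hgg
    rw [h9, h12] at hgg
    have hq' : lab pi q < r := hpl ⟨q, hq⟩
    have h13 := hinj (lab pi q) hq' _ (rowOf_mem K a i) _ (rowOf_mem K a j) hgg
    rw [← h9, ← h12] at h13
    have hnd := hphind _ (hrowphi q h7)
    rw [lab_eq_getD h8, lab_eq_getD h11] at h13
    exact (List.Nodup.getElem_inj_iff hnd).1 h13
  · intro e he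
    obtain ⟨i, hi⟩ := hrow e he
    refine ⟨img g (rowOf K a i), hmem _ (rowOf_mem K a i), ?_⟩
    funext q
    obtain ⟨_, _, h9⟩ := hi q q.2
    simp only [Function.comp, img, s, g']
    rw [h9]

/-! ### One step of the certificate -/

theorem wellFormed_spec {K : List (List ℕ)} (h : wellFormed r K = true) :
    ∀ e ∈ K, e.length = r ∧ ∀ x ∈ e, x < 254 := by
  induction K with
  | nil => simp
  | cons f K ih =>
    rw [wellFormed_cons] at h
    obtain ⟨h1, h2⟩ := of_cond_false h
    obtain ⟨h3, h4⟩ := of_cond_false h2
    intro e he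
    rcases List.mem_cons.1 he with rfl | he
    · have := Nat.eq_of_beq_eq_true h1
      rw [len_eq] at this
      exact ⟨this, allLt_spec h3⟩
    · exact ih h4 e he

theorem pairsOK_spec {C : List (ℕ × ℕ)} (h : pairsOK r C = true) :
    ∀ o ∈ C, o.1 < r ∧ o.2 < 254 := by
  induction C with
  | nil => simp
  | cons f C ih =>
    rw [pairsOK_cons] at h
    obtain ⟨h1, h2⟩ := of_cond_false h
    obtain ⟨h3, h4⟩ := of_cond_false h2
    intro o ho
    rcases List.mem_cons.1 ho with rfl | ho
    · exact ⟨lt_of_blt h1, lt_of_blt h3⟩
    · exact ih h4 o ho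

theorem step {tbl : ℕ → List (List ℕ)} {n : ℕ} {K : List (List ℕ)} {C : List (ℕ × ℕ)}
    {wits : List ℕ}
    (hcheck : kernelOK r nu c tbl n K C wits = true)
    (hprev : ∀ m, m < n → Refuted r nu c V (tbl m) ∧ ∀ e ∈ tbl m, e.length = r) :
    Refuted r nu c V K := by
  classical
  intro H hG hocc
  simp only [kernelOK] at hcheck
  obtain ⟨hwf, hcheck⟩ := of_cond_false hcheck
  obtain ⟨hclen, hcheck⟩ := of_cond_false hcheck
  obtain ⟨hcall, hcheck⟩ := of_cond_false hcheck
  obtain ⟨w2, hgo⟩ : ∃ w2, go K (leafCheck r tbl n K) (r + 1) (matchings nu K)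
      (List.replicate r 254) C wits = some w2 := by
    cases hh : go K (leafCheck r tbl n K) (r + 1) (matchings nu K)
      (List.replicate r 254) C wits with
    | none =>
      change Option.rec false (fun _ => true) (go K (leafCheck r tbl n K) (r + 1) (matchings nu K)
        (List.replicate r 254) C wits) = true at hcheck
      rw [hh] at hcheck
      simp at hcheck
    | some w2 => exact ⟨w2, rfl⟩
  have hwf' : ∀ e ∈ K, e.length = r ∧ ∀ x ∈ e, x < 254 :=
    wellFormed_spec hwf
  have hlab : ∀ e ∈ K, ∀ p < r, lab e p < 254 := by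
    intro e he p hp
    obtain ⟨h1, h2⟩ := hwf' e he
    apply h2
    rw [lab_eq_getD (by omega)]
    exact List.getElem_mem _
  have hclen' : C.length ≤ c := by
    have := Nat.le_of_ble_eq_true hclen
    rwa [lenP_eq] at this
  have hcall' : ∀ o ∈ C, o.1 < r ∧ o.2 < 254 := pairsOK_spec hcall
  obtain ⟨g, hinj, hmem⟩ := hocc
  -- the edge of `H` avoiding the images of the chosen vertices
  let Cl : List (Fin r × V) := C.filterMap fun o =>
    if h : o.1 < r then some (⟨o.1, h⟩, g o.1 o.2) else none
  have hCcard : Cl.toFinset.card ≤ c :=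
    le_trans (List.toFinset_card_le _) (le_trans (List.length_filterMap_le _ _) hclen')
  obtain ⟨y, hy, hyav⟩ := hG.noCover Cl.toFinset hCcard
  let yy : ℕ → V := fun p => if h : p < r then y ⟨p, h⟩ else g 0 0
  have hyy : ∀ i : Fin r, yy i = y i := by
    intro i
    simp [yy, i.2]
  let lbl : ℕ → ℕ := fun p =>
    if h : ∃ e ∈ K, g p (lab e p) = yy p then lab (Classical.choose h) p else 255
  let x : List ℕ := (List.range r).map lbl
  have hxlen : x.length = r := by simp [x]
  have hxlab : ∀ p < r, lab x p = lbl p := by
    intro p hp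
    rw [lab_eq_getD (by omega)]
    simp [x]
  have hlbl : ∀ p < r, (lbl p = 255 ∧ ¬ ∃ e ∈ K, g p (lab e p) = yy p) ∨
      ∃ e ∈ K, lbl p = lab e p ∧ g p (lab e p) = yy p := by
    intro p _
    by_cases h : ∃ e ∈ K, g p (lab e p) = yy p
    · right
      have hsp := Classical.choose_spec h
      refine ⟨Classical.choose h, hsp.1, ?_, hsp.2⟩
      simp only [lbl, dif_pos h]
    · left
      refine ⟨?_, h⟩
      simp only [lbl, dif_neg h]
  let g2 : ℕ → ℕ → V := fun p l => if l = 255 then yy p else g p l
  have hg2K : ∀ e ∈ K, ∀ p < r, g2 p (lab e p) = g p (lab e p) := by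
    intro e he p hp
    have := hlab e he p hp
    simp only [g2]
    rw [if_neg (by omega)]
  have himgK : ∀ e ∈ K, (img g2 e : Fin r → V) = img g e := by
    intro e he
    funext i
    exact hg2K e he i i.2
  have himgx : (img g2 x : Fin r → V) = y := by
    funext i
    simp only [img]
    rw [hxlab i i.2]
    rcases hlbl i i.2 with ⟨h1, _⟩ | ⟨e, he, h1, h2⟩
    · rw [h1]
      simp only [g2, if_true]
      exact hyy i
    · rw [h1]
      have := hlab e he i i.2
      simp only [g2]
      rw [if_neg (by omega), h2]
      exact hyy i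
  let F := K ++ [x]
  have hFmem : ∀ e ∈ F, e ∈ K ∨ e = x := by
    intro e he
    simpa [F] using he
  have hinj2 : ∀ p < r, ∀ e ∈ F, ∀ f ∈ F, g2 p (lab e p) = g2 p (lab f p) → lab e p = lab f p := by
    intro p hp e he f hf hgg
    have key : ∀ e ∈ K, g2 p (lab e p) = g2 p (lab x p) → lab e p = lab x p := by
      intro e he hgg
      rw [hg2K e he p hp] at hgg
      rw [hxlab p hp] at hgg ⊢
      rcases hlbl p hp with ⟨h1, h2⟩ | ⟨e0, he0, h1, h2⟩
      · rw [h1] at hgg
        simp only [g2, if_true] at hgg
        exact absurd ⟨e, he, hgg⟩ h2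
      · rw [h1] at hgg ⊢
        rw [hg2K e0 he0 p hp] at hgg
        exact hinj p hp e he e0 he0 hgg
    rcases hFmem e he with he | rfl
    · rcases hFmem f hf with hf | rfl
      · rw [hg2K e he p hp, hg2K f hf p hp] at hgg
        exact hinj p hp e he f hf hgg
      · exact key e he hgg
    · rcases hFmem f hf with hf | rfl
      · exact (key f hf hgg.symm).symm
      · rfl
  have hFH : ∀ e ∈ F, img g2 e ∈ H := by
    intro e he
    rcases hFmem e he with he | rfl
    · rw [himgK e he]; exact hmem e he
    · rw [himgx]; exact hy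
  have hocc2 : Occ H F := ⟨g2, hinj2, hFH⟩
  -- the new edge is in the domain of the search
  have hdom : ∀ p < r, lab x p = 255 ∨ ∃ e ∈ K, lab x p = lab e p := by
    intro p hp
    rw [hxlab p hp]
    rcases hlbl p hp with ⟨h1, _⟩ | ⟨e, he, h1, _⟩
    · exact Or.inl h1
    · exact Or.inr ⟨e, he, h1⟩
  have hav : ∀ u ∈ C, lab x u.1 ≠ u.2 := by
    intro u hu heq
    obtain ⟨h1, h2⟩ := hcall' u hu
    rw [hxlab u.1 h1] at heq
    rcases hlbl u.1 h1 with ⟨h3, _⟩ | ⟨e, _, h3, h4⟩
    · omega
    · apply hyav ⟨u.1, h1⟩
      rw [List.mem_toFinset, List.mem_filterMap]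
      refine ⟨u, hu, ?_⟩
      rw [dif_pos h1]
      have h5 : lab e u.1 = u.2 := by rw [← h3, heq]
      rw [← h5, h4]
      simp [hyy ⟨u.1, h1⟩]
  have hMs : ∀ U ∈ matchings nu K, ∀ e ∈ U, e.length = r := by
    intro U hU e he
    exact (hwf' e ((mem_matchings hU).2.1 e he)).1
  have hres := go_sound (r := r) hxlen hdom (r + 1) (matchings nu K) (List.replicate r 254) C
    wits w2 hgo (by simp)
    (by
      intro p hp hne
      exact absurd (lab_replicate hp) hne)
    hav hMs
  rcases hres with ⟨U, hU, hUx⟩ | ⟨w3, w4, hleaf⟩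
  · -- a large matching
    obtain ⟨hUlen, hUK, hUp⟩ := mem_matchings hU
    have hdsj : ∀ e ∈ F, ∀ f ∈ F, hit e f = false → e.length = r → f.length = r →
        Dsj (r := r) (img g2 e) (img g2 f) := by
      intro e he f hf hef hel hfl i heq
      have := hinj2 i i.2 e he f hf heq
      have h2 : hit e f = true := hit_iff.2 ⟨i, by omega, by omega, this⟩
      rw [hef] at h2
      exact absurd h2 (by simp)
    have hxF : x ∈ F := by simp [F]
    have hKF : ∀ e ∈ K, e ∈ F := fun e he => by simp [F, he]
    refine hG.noMatch ((img g2 x : Fin r → V) :: U.map (img g2)) (by simp [hUlen]) ?_ ?_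
    · intro e he
      rcases List.mem_cons.1 he with rfl | he
      · exact hFH x hxF
      · obtain ⟨f, hf, rfl⟩ := List.mem_map.1 he
        exact hFH f (hKF f (hUK f hf))
    · refine List.pairwise_cons.2 ⟨?_, ?_⟩
      · intro e he
        obtain ⟨f, hf, rfl⟩ := List.mem_map.1 he
        exact hdsj x hxF f (hKF f (hUK f hf)) (hUx f hf) hxlen (hwf' f (hUK f hf)).1
      · rw [List.pairwise_map]
        refine List.Pairwise.imp_of_mem ?_ hUp
        intro a b ha hb hab
        exact hdsj a (hKF a (hUK a ha)) b (hKF b (hUK b hb)) hab (hwf' a (hUK a ha)).1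
          (hwf' b (hUK b hb)).1
  · -- a copy of an earlier family
    cases w3 with
    | nil => rw [leafCheck_nil] at hleaf; simp at hleaf
    | cons d ws =>
      rw [leafCheck_cons] at hleaf
      cases hd : wOK r tbl n K x (decWit r d) with
      | false => rw [hd] at hleaf; simp at hleaf
      | true =>
        simp only [wOK] at hd
        obtain ⟨h1, h3⟩ := of_cond_false hd
        have hid := lt_of_blt h1
        obtain ⟨hR, hLen⟩ := hprev _ hid
        obtain ⟨s, hs, hocc3⟩ := occ_of_embOK hLen h3 hocc2
        exact hR _ (good_permH hs hG) hocc3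

/-- All families of a checked certificate are refuted. -/
theorem all_refuted {tbl : ℕ → List (List ℕ)} {N : ℕ} (hall : UpTo r nu c tbl 0 N) :
    ∀ n, n < N → Refuted r nu c V (tbl n) := by
  have hlen : ∀ n, n < N → ∀ e ∈ tbl n, e.length = r := by
    intro n hn e he
    obtain ⟨C, W, this⟩ := hall n (Nat.zero_le _) hn
    simp only [kernelOK] at this
    exact (wellFormed_spec (of_cond_false this).1 e he).1
  intro n
  induction n using Nat.strong_induction_on with
  | _ n ih =>
    intro hn
    obtain ⟨C, W, this⟩ := hall n (Nat.zero_le _) hn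
    exact step this (fun m hm => ⟨ih m hm (by omega), hlen m (by omega)⟩)

/-- The conclusion for a hypergraph given by functions, from a refuted family with one edge. -/
theorem cover_of_refuted {H : Set (Fin r → V)} (hr : 0 < r)
    (hR : Refuted r nu c V [List.replicate r 0])
    (hM : ∀ l : List (Fin r → V), l.length = nu + 1 → (∀ e ∈ l, e ∈ H) → l.Pairwise Dsj → False) :
    ∃ C : Finset (Fin r × V), C.card ≤ c ∧ ∀ e ∈ H, ∃ i, (i, e i) ∈ C := by
  classical
  by_contra hcon
  push Not at hcon
  have hG : Good nu c H := by
    refine ⟨hM, ?_⟩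
    intro C hC
    obtain ⟨e, he, h⟩ := hcon C hC
    exact ⟨e, he, h⟩
  obtain ⟨e, he, -⟩ := hG.noCover ∅ (by simp)
  refine hR H hG ?_
  refine ⟨fun p _ => if h : p < r then e ⟨p, h⟩ else e ⟨0, hr⟩, ?_, ?_⟩
  · intro p _ a ha b hb _
    simp only [List.mem_singleton] at ha hb
    rw [ha, hb]
  · intro a ha
    simp only [List.mem_singleton] at ha
    subst ha
    have : (img (fun p _ => if h : p < r then e ⟨p, h⟩ else e ⟨0, hr⟩) (List.replicate r 0) :
        Fin r → V) = e := by
      funext i
      simp [img]
    rw [this]
    exact he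

/-- The statement for a multipartite hypergraph given as a set of edges. -/
theorem cover_of_upTo {tbl : ℕ → List (List ℕ)} {N m : ℕ} (hr : 0 < r)
    (hall : UpTo r nu c tbl 0 N) (hm : m < N) (htbl : tbl m = [List.replicate r 0])
    {W : Type u} (part : W → Fin r) (H : Finset (Finset W))
    (hpart : ∀ e ∈ H, ∀ i, ∃! v, v ∈ e ∧ part v = i)
    (hν : ∀ M ⊆ H, (∀ a ∈ M, ∀ b ∈ M, a ≠ b → Disjoint a b) → M.card ≤ nu) :
    ∃ C : Finset W, C.card ≤ c ∧ ∀ e ∈ H, ∃ v ∈ C, v ∈ e := by
  classical
  have hR : Refuted r nu c W [List.replicate r 0] := by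
    rw [← htbl]
    exact all_refuted hall m hm
  -- edges as functions
  let H' : Set (Fin r → W) := {f | ∃ e ∈ H, ∀ i, f i ∈ e ∧ part (f i) = i}
  have hex : ∀ e ∈ H, ∃ f : Fin r → W, f ∈ H' ∧ ∀ i, f i ∈ e := by
    intro e he
    have hch : ∀ i, ∃ v, v ∈ e ∧ part v = i := fun i => (hpart e he i).exists
    choose f hf using hch
    exact ⟨f, ⟨e, he, hf⟩, fun i => (hf i).1⟩
  have hM : ∀ l : List (Fin r → W), l.length = nu + 1 → (∀ e ∈ l, e ∈ H') → l.Pairwise Dsj →
      False := by
    intro l hl hmem hp
    have hch : ∀ f ∈ l, ∃ e ∈ H, ∀ i, f i ∈ e ∧ part (f i) = i := fun f hf => hmem f hf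
    choose! ed hed1 hed2 using hch
    have hkey : ∀ f ∈ l, ∀ g ∈ l, Dsj f g → Disjoint (ed f) (ed g) := by
      intro f hf g hg hd
      rw [Finset.disjoint_left]
      intro v hv hv'
      have h1 := (hpart _ (hed1 f hf) (part v)).unique ⟨hv, rfl⟩ (hed2 f hf (part v))
      have h2 := (hpart _ (hed1 g hg) (part v)).unique ⟨hv', rfl⟩ (hed2 g hg (part v))
      exact hd (part v) (by rw [← h1, ← h2])
    have hne : ∀ f ∈ l, (ed f).Nonempty := fun f hf =>
      ⟨f ⟨0, hr⟩, (hed2 f hf ⟨0, hr⟩).1⟩
    have hpw : (l.map ed).Pairwise Disjoint := by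
      rw [List.pairwise_map]
      exact List.Pairwise.imp_of_mem (fun {a b} ha hb hab => hkey a ha b hb hab) hp
    have hnd : (l.map ed).Nodup := by
      refine List.Pairwise.imp_of_mem ?_ hpw
      intro a b ha _ hab heq
      subst heq
      obtain ⟨f, hf, rfl⟩ := List.mem_map.1 ha
      obtain ⟨v, hv⟩ := hne f hf
      exact Finset.disjoint_left.1 hab hv hv
    have hcard : (l.map ed).toFinset.card = nu + 1 := by
      rw [List.toFinset_card_of_nodup hnd]
      simpa using hl
    have hle := hν (l.map ed).toFinset ?_ ?_
    · omega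
    · intro e he
      rw [List.mem_toFinset] at he
      obtain ⟨f, hf, rfl⟩ := List.mem_map.1 he
      exact hed1 f hf
    · intro a ha b hb hab
      rw [List.mem_toFinset] at ha hb
      obtain ⟨i, hi, rfl⟩ := List.getElem_of_mem ha
      obtain ⟨j, hj, rfl⟩ := List.getElem_of_mem hb
      have hij : i ≠ j := fun hh => hab (by subst hh; rfl)
      rcases lt_or_gt_of_ne hij with hlt | hlt
      · exact (List.pairwise_iff_getElem.1 hpw) i j hi hj hlt
      · exact ((List.pairwise_iff_getElem.1 hpw) j i hj hi hlt).symm
  obtain ⟨C, hC, hcov⟩ := cover_of_refuted hr hR hM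
  refine ⟨C.image Prod.snd, le_trans Finset.card_image_le hC, ?_⟩
  intro e he
  obtain ⟨f, hf, hfe⟩ := hex e he
  obtain ⟨i, hi⟩ := hcov f hf
  exact ⟨f i, Finset.mem_image.2 ⟨(i, f i), hi, rfl⟩, hfe i⟩

end Vale.Agent.Lib.P045
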