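import Vale.Agent.Lib.P045.Sound

/-!
The certificate check of `Sound` for hypergraphs in which two distinct edges agree in at most `T`
parts. Families of two edges with more than `T` common labels cannot occur in such a hypergraph, so
they may be put at the start of the table without a check.
-/

namespace Vale.Agent.Lib.P045

universe u

variable {V : Type u} {r nu c : ℕ}

/-- Two distinct edges agree in at most `T` parts. -/
def Lin (T : ℕ) (H : Set (Fin r → V)) : Prop :=
  ∀ e ∈ H, ∀ f ∈ H, e ≠ f → ∀ I : Finset (Fin r), (∀ i ∈ I, e i = f i) → I.card ≤ T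

/-- `K` occurs in no hypergraph over `V` without large matching and small cover, in which two
distinct edges agree in at most `T` parts. -/
def RefutedL (T r nu c : ℕ) (V : Type u) (K : List (List ℕ)) : Prop :=
  ∀ H : Set (Fin r → V), Good nu c H → Lin T H → ¬ Occ H K

theorem lin_permH {T : ℕ} {s : Fin r → Fin r} (hs : Function.Bijective s) {H : Set (Fin r → V)}
    (hL : Lin T H) : Lin T (permH s H) := by
  classical
  intro e he f hf hne I hI
  obtain ⟨a, ha, rfl⟩ := he
  obtain ⟨b, hb, rfl⟩ := hf
  have hab : a ≠ b := fun h => hne (by rw [h])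
  have := hL a ha b hb hab (I.image s) (by
    intro i hi
    obtain ⟨j, hj, rfl⟩ := Finset.mem_image.1 hi
    exact hI j hj)
  rwa [Finset.card_image_of_injective _ hs.1] at this

/-- A family of two edges with more than `T` common labels cannot occur. -/
theorem refutedL_pair {T : ℕ} {e f : List ℕ} (I : Finset (Fin r))
    (hI : ∀ i ∈ I, lab e i = lab f i) (hcard : T < I.card) (p : Fin r)
    (hp : lab e p ≠ lab f p) : RefutedL T r nu c V [e, f] := by
  rintro H _ hL ⟨g, hinj, hmem⟩
  have hab : (img g e : Fin r → V) ≠ img g f := by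
    intro h
    have h2 := congrFun h p
    simp only [img] at h2
    exact hp (hinj p p.2 e (by simp) f (by simp) h2)
  have := hL _ (hmem e (by simp)) _ (hmem f (by simp)) hab I (by
    intro i hi
    simp only [img]
    rw [hI i hi])
  omega

theorem stepL {T : ℕ} {tbl : ℕ → List (List ℕ)} {n : ℕ} {K : List (List ℕ)} {C : List (ℕ × ℕ)}
    {wits : List ℕ}
    (hcheck : kernelOK r nu c tbl n K C wits = true)
    (hprev : ∀ m, m < n → RefutedL T r nu c V (tbl m) ∧ ∀ e ∈ tbl m, e.length = r) :
    RefutedL T r nu c V K := by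
  classical
  intro H hG hL hocc
  simp only [kernelOK] at hcheck
  obtain ⟨hwf, hcheck⟩ := of_cond_false hcheck
  obtain ⟨hclen, hcheck⟩ := of_cond_false hcheck
  obtain ⟨hcall, hcheck⟩ := of_cond_false hcheck
  obtain ⟨w2, hgo⟩ : ∃ w2, go K (leafCheck r tbl n K) (r + 1) (matchings nu K)
      (List.replicate r 254) C wits = some w2 := by
    cases hh : go K (leafCheck r tbl n K) (r + 1) (matchings nu K)
      (List.replicate r 254) C wits with
    | none =>
      change Option.rec false (fun _ => true) (go K (leafCheck r tbl n K) (r + 1) (matchings nu K)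
        (List.replicate r 254) C wits) = true at hcheck
      rw [hh] at hcheck
      simp at hcheck
    | some w2 => exact ⟨w2, rfl⟩
  have hwf' : ∀ e ∈ K, e.length = r ∧ ∀ x ∈ e, x < 254 :=
    wellFormed_spec hwf
  have hlab : ∀ e ∈ K, ∀ p < r, lab e p < 254 := by
    intro e he p hp
    obtain ⟨h1, h2⟩ := hwf' e he
    apply h2
    rw [lab_eq_getD (by omega)]
    exact List.getElem_mem _
  have hclen' : C.length ≤ c := by
    have := Nat.le_of_ble_eq_true hclen
    rwa [lenP_eq] at this
  have hcall' : ∀ o ∈ C, o.1 < r ∧ o.2 < 254 := pairsOK_spec hcall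
  obtain ⟨g, hinj, hmem⟩ := hocc
  -- the edge of `H` avoiding the images of the chosen vertices
  let Cl : List (Fin r × V) := C.filterMap fun o =>
    if h : o.1 < r then some (⟨o.1, h⟩, g o.1 o.2) else none
  have hCcard : Cl.toFinset.card ≤ c :=
    le_trans (List.toFinset_card_le _) (le_trans (List.length_filterMap_le _ _) hclen')
  obtain ⟨y, hy, hyav⟩ := hG.noCover Cl.toFinset hCcard
  let yy : ℕ → V := fun p => if h : p < r then y ⟨p, h⟩ else g 0 0
  have hyy : ∀ i : Fin r, yy i = y i := by
    intro i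
    simp [yy, i.2]
  let lbl : ℕ → ℕ := fun p =>
    if h : ∃ e ∈ K, g p (lab e p) = yy p then lab (Classical.choose h) p else 255
  let x : List ℕ := (List.range r).map lbl
  have hxlen : x.length = r := by simp [x]
  have hxlab : ∀ p < r, lab x p = lbl p := by
    intro p hp
    rw [lab_eq_getD (by omega)]
    simp [x]
  have hlbl : ∀ p < r, (lbl p = 255 ∧ ¬ ∃ e ∈ K, g p (lab e p) = yy p) ∨
      ∃ e ∈ K, lbl p = lab e p ∧ g p (lab e p) = yy p := by
    intro p _
    by_cases h : ∃ e ∈ K, g p (lab e p) = yy p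
    · right
      have hsp := Classical.choose_spec h
      refine ⟨Classical.choose h, hsp.1, ?_, hsp.2⟩
      simp only [lbl, dif_pos h]
    · left
      refine ⟨?_, h⟩
      simp only [lbl, dif_neg h]
  let g2 : ℕ → ℕ → V := fun p l => if l = 255 then yy p else g p l
  have hg2K : ∀ e ∈ K, ∀ p < r, g2 p (lab e p) = g p (lab e p) := by
    intro e he p hp
    have := hlab e he p hp
    simp only [g2]
    rw [if_neg (by omega)]
  have himgK : ∀ e ∈ K, (img g2 e : Fin r → V) = img g e := by
    intro e he
    funext i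
    exact hg2K e he i i.2
  have himgx : (img g2 x : Fin r → V) = y := by
    funext i
    simp only [img]
    rw [hxlab i i.2]
    rcases hlbl i i.2 with ⟨h1, _⟩ | ⟨e, he, h1, h2⟩
    · rw [h1]
      simp only [g2, if_true]
      exact hyy i
    · rw [h1]
      have := hlab e he i i.2
      simp only [g2]
      rw [if_neg (by omega), h2]
      exact hyy i
  let F := K ++ [x]
  have hFmem : ∀ e ∈ F, e ∈ K ∨ e = x := by
    intro e he
    simpa [F] using he
  have hinj2 : ∀ p < r, ∀ e ∈ F, ∀ f ∈ F, g2 p (lab e p) = g2 p (lab f p) → lab e p = lab f p := by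
    intro p hp e he f hf hgg
    have key : ∀ e ∈ K, g2 p (lab e p) = g2 p (lab x p) → lab e p = lab x p := by
      intro e he hgg
      rw [hg2K e he p hp] at hgg
      rw [hxlab p hp] at hgg ⊢
      rcases hlbl p hp with ⟨h1, h2⟩ | ⟨e0, he0, h1, h2⟩
      · rw [h1] at hgg
        simp only [g2, if_true] at hgg
        exact absurd ⟨e, he, hgg⟩ h2
      · rw [h1] at hgg ⊢
        rw [hg2K e0 he0 p hp] at hgg
        exact hinj p hp e he e0 he0 hgg
    rcases hFmem e he with he | rfl
    · rcases hFmem f hf with hf | rfl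
      · rw [hg2K e he p hp, hg2K f hf p hp] at hgg
        exact hinj p hp e he f hf hgg
      · exact key e he hgg
    · rcases hFmem f hf with hf | rfl
      · exact (key f hf hgg.symm).symm
      · rfl
  have hFH : ∀ e ∈ F, img g2 e ∈ H := by
    intro e he
    rcases hFmem e he with he | rfl
    · rw [himgK e he]; exact hmem e he
    · rw [himgx]; exact hy
  have hocc2 : Occ H F := ⟨g2, hinj2, hFH⟩
  -- the new edge is in the domain of the search
  have hdom : ∀ p < r, lab x p = 255 ∨ ∃ e ∈ K, lab x p = lab e p := by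
    intro p hp
    rw [hxlab p hp]
    rcases hlbl p hp with ⟨h1, _⟩ | ⟨e, he, h1, _⟩
    · exact Or.inl h1
    · exact Or.inr ⟨e, he, h1⟩
  have hav : ∀ u ∈ C, lab x u.1 ≠ u.2 := by
    intro u hu heq
    obtain ⟨h1, h2⟩ := hcall' u hu
    rw [hxlab u.1 h1] at heq
    rcases hlbl u.1 h1 with ⟨h3, _⟩ | ⟨e, _, h3, h4⟩
    · omega
    · apply hyav ⟨u.1, h1⟩
      rw [List.mem_toFinset, List.mem_filterMap]
      refine ⟨u, hu, ?_⟩
      rw [dif_pos h1]
      have h5 : lab e u.1 = u.2 := by rw [← h3, heq]
      rw [← h5, h4]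
      simp [hyy ⟨u.1, h1⟩]
  have hMs : ∀ U ∈ matchings nu K, ∀ e ∈ U, e.length = r := by
    intro U hU e he
    exact (hwf' e ((mem_matchings hU).2.1 e he)).1
  have hres := go_sound (r := r) hxlen hdom (r + 1) (matchings nu K) (List.replicate r 254) C
    wits w2 hgo (by simp)
    (by
      intro p hp hne
      exact absurd (lab_replicate hp) hne)
    hav hMs
  rcases hres with ⟨U, hU, hUx⟩ | ⟨w3, w4, hleaf⟩
  · -- a large matching
    obtain ⟨hUlen, hUK, hUp⟩ := mem_matchings hU
    have hdsj : ∀ e ∈ F, ∀ f ∈ F, hit e f = false → e.length = r → f.length = r →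
        Dsj (r := r) (img g2 e) (img g2 f) := by
      intro e he f hf hef hel hfl i heq
      have := hinj2 i i.2 e he f hf heq
      have h2 : hit e f = true := hit_iff.2 ⟨i, by omega, by omega, this⟩
      rw [hef] at h2
      exact absurd h2 (by simp)
    have hxF : x ∈ F := by simp [F]
    have hKF : ∀ e ∈ K, e ∈ F := fun e he => by simp [F, he]
    refine hG.noMatch ((img g2 x : Fin r → V) :: U.map (img g2)) (by simp [hUlen]) ?_ ?_
    · intro e he
      rcases List.mem_cons.1 he with rfl | he
      · exact hFH x hxF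
      · obtain ⟨f, hf, rfl⟩ := List.mem_map.1 he
        exact hFH f (hKF f (hUK f hf))
    · refine List.pairwise_cons.2 ⟨?_, ?_⟩
      · intro e he
        obtain ⟨f, hf, rfl⟩ := List.mem_map.1 he
        exact hdsj x hxF f (hKF f (hUK f hf)) (hUx f hf) hxlen (hwf' f (hUK f hf)).1
      · rw [List.pairwise_map]
        refine List.Pairwise.imp_of_mem ?_ hUp
        intro a b ha hb hab
        exact hdsj a (hKF a (hUK a ha)) b (hKF b (hUK b hb)) hab (hwf' a (hUK a ha)).1
          (hwf' b (hUK b hb)).1
  · -- a copy of an earlier family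
    cases w3 with
    | nil => rw [leafCheck_nil] at hleaf; simp at hleaf
    | cons d ws =>
      rw [leafCheck_cons] at hleaf
      cases hd : wOK r tbl n K x (decWit r d) with
      | false => rw [hd] at hleaf; simp at hleaf
      | true =>
        simp only [wOK] at hd
        obtain ⟨h1, h3⟩ := of_cond_false hd
        have hid := lt_of_blt h1
        obtain ⟨hR, hLen⟩ := hprev _ hid
        obtain ⟨s, hs, hocc3⟩ := occ_of_embOK hLen h3 hocc2
        exact hR _ (good_permH hs hG) (lin_permH hs hL) hocc3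

/-- All families of a checked certificate with unchecked start are refuted. -/
theorem all_refutedL {T B N : ℕ} {tbl : ℕ → List (List ℕ)}
    (hbase : ∀ n, n < B → RefutedL T r nu c V (tbl n) ∧ ∀ e ∈ tbl n, e.length = r)
    (hall : UpTo r nu c tbl B N) :
    ∀ n, n < N → RefutedL T r nu c V (tbl n) := by
  have hlen : ∀ n, n < N → ∀ e ∈ tbl n, e.length = r := by
    intro n hn e he
    by_cases hB : n < B
    · exact (hbase n hB).2 e he
    · obtain ⟨C, W, this⟩ := hall n (by omega) hn
      simp only [kernelOK] at this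
      exact (wellFormed_spec (of_cond_false this).1 e he).1
  intro n
  induction n using Nat.strong_induction_on with
  | _ n ih =>
    intro hn
    by_cases hB : n < B
    · exact (hbase n hB).1
    · obtain ⟨C, W, this⟩ := hall n (by omega) hn
      exact stepL this (fun m hm => ⟨ih m hm (by omega), hlen m (by omega)⟩)

/-- The conclusion for a hypergraph given by functions, from a refuted family with one edge. -/
theorem cover_of_refutedL {T : ℕ} {H : Set (Fin r → V)} (hr : 0 < r)
    (hR : RefutedL T r nu c V [List.replicate r 0]) (hL : Lin T H)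
    (hM : ∀ l : List (Fin r → V), l.length = nu + 1 → (∀ e ∈ l, e ∈ H) → l.Pairwise Dsj → False) :
    ∃ C : Finset (Fin r × V), C.card ≤ c ∧ ∀ e ∈ H, ∃ i, (i, e i) ∈ C := by
  classical
  by_contra hcon
  push Not at hcon
  have hG : Good nu c H := by
    refine ⟨hM, ?_⟩
    intro C hC
    obtain ⟨e, he, h⟩ := hcon C hC
    exact ⟨e, he, h⟩
  obtain ⟨e, he, -⟩ := hG.noCover ∅ (by simp)
  refine hR H hG hL ?_
  refine ⟨fun p _ => if h : p < r then e ⟨p, h⟩ else e ⟨0, hr⟩, ?_, ?_⟩
  · intro p _ a ha b hb _
    simp only [List.mem_singleton] at ha hb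
    rw [ha, hb]
  · intro a ha
    simp only [List.mem_singleton] at ha
    subst ha
    have : (img (fun p _ => if h : p < r then e ⟨p, h⟩ else e ⟨0, hr⟩) (List.replicate r 0) :
        Fin r → V) = e := by
      funext i
      simp [img]
    rw [this]
    exact he

theorem cover_of_upToL {tbl : ℕ → List (List ℕ)} {B N m : ℕ} (hr : 0 < r)
    {W : Type u}
    (hbase : ∀ n, n < B → RefutedL 1 r nu c W (tbl n) ∧ ∀ e ∈ tbl n, e.length = r)
    (hall : UpTo r nu c tbl B N) (hm : m < N) (htbl : tbl m = [List.replicate r 0])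
    (part : W → Fin r) (H : Finset (Finset W))
    (hpart : ∀ e ∈ H, ∀ i, ∃! v, v ∈ e ∧ part v = i)
    (hlin : ∀ e ∈ H, ∀ f ∈ H, e ≠ f → ∀ u v : W, u ∈ e → u ∈ f → v ∈ e → v ∈ f → u = v)
    (hν : ∀ M ⊆ H, (∀ a ∈ M, ∀ b ∈ M, a ≠ b → Disjoint a b) → M.card ≤ nu) :
    ∃ C : Finset W, C.card ≤ c ∧ ∀ e ∈ H, ∃ v ∈ C, v ∈ e := by
  classical
  have hR : RefutedL 1 r nu c W [List.replicate r 0] := by
    rw [← htbl]
    exact all_refutedL hbase hall m hm
  -- edges as functions
  let H' : Set (Fin r → W) := {f | ∃ e ∈ H, ∀ i, f i ∈ e ∧ part (f i) = i}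
  have hex : ∀ e ∈ H, ∃ f : Fin r → W, f ∈ H' ∧ ∀ i, f i ∈ e := by
    intro e he
    have hch : ∀ i, ∃ v, v ∈ e ∧ part v = i := fun i => (hpart e he i).exists
    choose f hf using hch
    exact ⟨f, ⟨e, he, hf⟩, fun i => (hf i).1⟩
  have hM : ∀ l : List (Fin r → W), l.length = nu + 1 → (∀ e ∈ l, e ∈ H') → l.Pairwise Dsj →
      False := by
    intro l hl hmem hp
    have hch : ∀ f ∈ l, ∃ e ∈ H, ∀ i, f i ∈ e ∧ part (f i) = i := fun f hf => hmem f hf
    choose! ed hed1 hed2 using hch
    have hkey : ∀ f ∈ l, ∀ g ∈ l, Dsj f g → Disjoint (ed f) (ed g) := by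
      intro f hf g hg hd
      rw [Finset.disjoint_left]
      intro v hv hv'
      have h1 := (hpart _ (hed1 f hf) (part v)).unique ⟨hv, rfl⟩ (hed2 f hf (part v))
      have h2 := (hpart _ (hed1 g hg) (part v)).unique ⟨hv', rfl⟩ (hed2 g hg (part v))
      exact hd (part v) (by rw [← h1, ← h2])
    have hne : ∀ f ∈ l, (ed f).Nonempty := fun f hf =>
      ⟨f ⟨0, hr⟩, (hed2 f hf ⟨0, hr⟩).1⟩
    have hpw : (l.map ed).Pairwise Disjoint := by
      rw [List.pairwise_map]
      exact List.Pairwise.imp_of_mem (fun {a b} ha hb hab => hkey a ha b hb hab) hp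
    have hnd : (l.map ed).Nodup := by
      refine List.Pairwise.imp_of_mem ?_ hpw
      intro a b ha _ hab heq
      subst heq
      obtain ⟨f, hf, rfl⟩ := List.mem_map.1 ha
      obtain ⟨v, hv⟩ := hne f hf
      exact Finset.disjoint_left.1 hab hv hv
    have hcard : (l.map ed).toFinset.card = nu + 1 := by
      rw [List.toFinset_card_of_nodup hnd]
      simpa using hl
    have hle := hν (l.map ed).toFinset ?_ ?_
    · omega
    · intro e he
      rw [List.mem_toFinset] at he
      obtain ⟨f, hf, rfl⟩ := List.mem_map.1 he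
      exact hed1 f hf
    · intro a ha b hb hab
      rw [List.mem_toFinset] at ha hb
      obtain ⟨i, hi, rfl⟩ := List.getElem_of_mem ha
      obtain ⟨j, hj, rfl⟩ := List.getElem_of_mem hb
      have hij : i ≠ j := fun hh => hab (by subst hh; rfl)
      rcases lt_or_gt_of_ne hij with hlt | hlt
      · exact (List.pairwise_iff_getElem.1 hpw) i j hi hj hlt
      · exact ((List.pairwise_iff_getElem.1 hpw) j i hj hi hlt).symm
  have hL : Lin 1 H' := by
    rintro a ⟨e, he, hae⟩ b ⟨f, hf, hbf⟩ hab I hI
    have hef : e ≠ f := by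
      rintro rfl
      apply hab
      funext i
      exact (hpart e he i).unique (hae i) (hbf i)
    refine Finset.card_le_one.2 ?_
    intro i hi j hj
    have h1 := hlin e he f hf hef (a i) (a j) (hae i).1 (by rw [hI i hi]; exact (hbf i).1)
      (hae j).1 (by rw [hI j hj]; exact (hbf j).1)
    have h2 : part (a i) = i := (hae i).2
    have h3 : part (a j) = j := (hae j).2
    rw [← h2, ← h3, h1]
  obtain ⟨C, hC, hcov⟩ := cover_of_refutedL hr hR hL hM
  refine ⟨C.image Prod.snd, le_trans Finset.card_image_le hC, ?_⟩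
  intro e he
  obtain ⟨f, hf, hfe⟩ := hex e he
  obtain ⟨i, hi⟩ := hcov f hf
  exact ⟨f i, Finset.mem_image.2 ⟨(i, f i), hi, rfl⟩, hfe i⟩

end Vale.Agent.Lib.P045
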